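import Mathlib

/-! Averaged derivatives of Lipschitz maps on a box. -/

namespace Vale.Agent.P079

open MeasureTheory Set Finset Filter Topology

/-- A smooth density on a box together with the positive and negative parts of its
directional derivatives. -/
structure Kit (I : Type) [Fintype I] (w ε : I → ℝ) where
  φ : (I → ℝ) → ℝ
  g : I → Bool → (I → ℝ) → ℝ
  a : I → ℝ
  pos : ∀ i, 0 < ε i ∧ 4 * ε i < w i
  φ_smooth : ContDiff ℝ 1 φ
  φ_nonneg : ∀ x, 0 ≤ φ x
  φ_int : ∫ x, φ x = 1
  φ_supp : ∀ x, φ x ≠ 0 → ∀ i, ε i ≤ x i ∧ x i ≤ w i - ε i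
  g_cont : ∀ i s, Continuous (g i s)
  g_nonneg : ∀ i s x, 0 ≤ g i s x
  g_int : ∀ i s, ∫ x, g i s x = 1
  g_supp : ∀ i s x, g i s x ≠ 0 → x ∈ Icc 0 w
  g_true : ∀ i x, g i true x ≠ 0 → w i - 2 * ε i ≤ x i
  g_false : ∀ i x, g i false x ≠ 0 → x i ≤ 2 * ε i
  deriv : ∀ x c, fderiv ℝ φ x c = ∑ i, c i * a i * (g i false x - g i true x)

/-- Rescaled smooth step. -/
noncomputable def st (c ε x : ℝ) : ℝ := Real.smoothTransition ((x - c) / ε)

lemma st_smooth (c ε : ℝ) : ContDiff ℝ 2 (st c ε) :=
  (Real.smoothTransition.contDiff (n := 2)).comp ((contDiff_id.sub contDiff_const).div_const ε)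

lemma st_zero {c ε x : ℝ} (hε : 0 < ε) (h : x ≤ c) : st c ε x = 0 :=
  Real.smoothTransition.zero_of_nonpos (div_nonpos_of_nonpos_of_nonneg (by linarith) hε.le)

lemma st_one {c ε x : ℝ} (hε : 0 < ε) (h : c + ε ≤ x) : st c ε x = 1 :=
  Real.smoothTransition.one_of_one_le ((one_le_div hε).2 (by linarith))

lemma st_mono (c : ℝ) {ε : ℝ} (hε : 0 < ε) : Monotone (st c ε) := fun x y h =>
  Real.smoothTransition.monotone (by gcongr)

lemma st_anti {c c' ε : ℝ} (hε : 0 < ε) (h : c ≤ c') (x : ℝ) : st c' ε x ≤ st c ε x :=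
  Real.smoothTransition.monotone (by gcongr)

lemma dst_cont (c ε : ℝ) : Continuous (deriv (st c ε)) :=
  (st_smooth c ε).continuous_deriv (by norm_num)

lemma dst_nonneg (c : ℝ) {ε : ℝ} (hε : 0 < ε) (x : ℝ) : 0 ≤ deriv (st c ε) x :=
  (st_mono c hε).deriv_nonneg

lemma dst_supp {c ε x : ℝ} (hε : 0 < ε) (h : deriv (st c ε) x ≠ 0) : c ≤ x ∧ x ≤ c + ε := by
  by_contra hc
  apply h
  rcases not_and_or.1 hc with h1 | h1
  · have : st c ε =ᶠ[𝓝 x] fun _ => 0 := by
      filter_upwards [Iio_mem_nhds (not_le.1 h1)] with y hy using st_zero hε (le_of_lt hy)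
    rw [this.deriv_eq]; simp
  · have : st c ε =ᶠ[𝓝 x] fun _ => 1 := by
      filter_upwards [Ioi_mem_nhds (not_le.1 h1)] with y hy using st_one hε (le_of_lt hy)
    rw [this.deriv_eq]; simp

lemma integrable_of_supp {f : ℝ → ℝ} (hf : Continuous f) {a b : ℝ}
    (h : ∀ x, f x ≠ 0 → a ≤ x ∧ x ≤ b) : Integrable f :=
  hf.integrable_of_hasCompactSupport (HasCompactSupport.intro (K := Icc a b) isCompact_Icc
    fun x hx => by by_contra h0; exact hx (h x h0))

lemma dst_int (c : ℝ) {ε : ℝ} (hε : 0 < ε) : ∫ x, deriv (st c ε) x = 1 := by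
  have h := integral_of_hasDerivAt_of_tendsto (f := st c ε) (f' := deriv (st c ε)) (m := 0) (n := 1)
    (fun x => ((st_smooth c ε).differentiable (by norm_num) x).hasDerivAt)
    (integrable_of_supp (dst_cont c ε) fun x hx => dst_supp hε hx)
    (tendsto_const_nhds.congr' (by
      filter_upwards [eventually_le_atBot c] with x hx using (st_zero hε hx).symm))
    (tendsto_const_nhds.congr' (by
      filter_upwards [eventually_ge_atTop (c + ε)] with x hx using (st_one hε hx).symm))
  simpa using h

/-- Plateau function. -/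
noncomputable def plat (w ε x : ℝ) : ℝ := st ε ε x - st (w - 2 * ε) ε x

lemma plat_smooth (w ε : ℝ) : ContDiff ℝ 2 (plat w ε) := (st_smooth _ _).sub (st_smooth _ _)

lemma plat_nonneg {w ε : ℝ} (hε : 0 < ε) (hw : 4 * ε < w) (x : ℝ) : 0 ≤ plat w ε x :=
  sub_nonneg.2 (st_anti hε (by linarith) x)

lemma plat_supp {w ε x : ℝ} (hε : 0 < ε) (hw : 4 * ε < w) (h : plat w ε x ≠ 0) :
    ε ≤ x ∧ x ≤ w - ε := by
  by_contra hc
  apply h
  rcases not_and_or.1 hc with h1 | h1
  · rw [plat, st_zero hε (by linarith), st_zero hε (by linarith), sub_zero]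
  · rw [plat, st_one hε (by linarith), st_one hε (by linarith), sub_self]

lemma plat_int_pos {w ε : ℝ} (hε : 0 < ε) (hw : 4 * ε < w) : 0 < ∫ x, plat w ε x := by
  refine (plat_smooth w ε).continuous.integral_pos_of_hasCompactSupport_nonneg_nonzero
    (x := 2 * ε) (HasCompactSupport.intro (K := Icc ε (w - ε)) isCompact_Icc
      fun x hx => by by_contra h0; exact hx (plat_supp hε hw h0)) (plat_nonneg hε hw) ?_
  rw [plat, st_one hε (by linarith), st_zero hε (by linarith)]
  norm_num

lemma plat_deriv (w ε x : ℝ) : HasDerivAt (plat w ε)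
    (deriv (st ε ε) x - deriv (st (w - 2 * ε) ε) x) x :=
  (((st_smooth _ _).differentiable (by norm_num) x).hasDerivAt).sub
    (((st_smooth _ _).differentiable (by norm_num) x).hasDerivAt)

theorem exists_kit (I : Type) [Fintype I] (w ε : I → ℝ) (h : ∀ i, 0 < ε i ∧ 4 * ε i < w i) :
    Nonempty (Kit I w ε) := by
  classical
  let H : I → ℝ := fun i => (∫ x, plat (w i) (ε i) x)⁻¹
  have hH : ∀ i, 0 < H i := fun i => inv_pos.2 (plat_int_pos (h i).1 (h i).2)
  let p : I → ℝ → ℝ := fun i x => H i * plat (w i) (ε i) x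
  have hp_smooth : ∀ i, ContDiff ℝ 2 (p i) := fun i => contDiff_const.mul (plat_smooth _ _)
  have hp0 : ∀ i x, 0 ≤ p i x := fun i x =>
    mul_nonneg (hH i).le (plat_nonneg (h i).1 (h i).2 x)
  have hp1 : ∀ i, ∫ x, p i x = 1 := fun i => by
    simp only [p]
    rw [integral_const_mul]
    exact inv_mul_cancel₀ (plat_int_pos (h i).1 (h i).2).ne'
  have hps : ∀ i x, p i x ≠ 0 → ε i ≤ x ∧ x ≤ w i - ε i := fun i x hx =>
    plat_supp (h i).1 (h i).2 (right_ne_zero_of_mul hx)
  let d : I → Bool → ℝ → ℝ := fun i s =>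
    deriv (st (if s then w i - 2 * ε i else ε i) (ε i))
  let q : I → Bool → I → ℝ → ℝ := fun i s k => if k = i then d i s else p k
  have hq : ∀ i s (x : I → ℝ), ∏ k, q i s k (x k) = d i s (x i) * ∏ k ∈ univ.erase i, p k (x k) := by
    intro i s x
    rw [← Finset.mul_prod_erase _ _ (mem_univ i)]
    congr 1
    · simp [q]
    · exact prod_congr rfl fun k hk => by simp [q, ne_of_mem_erase hk]
  have hqs : ∀ i s (x : I → ℝ), ∏ k, q i s k (x k) ≠ 0 → d i s (x i) ≠ 0 := fun i s x hx => by
    rw [hq] at hx; exact left_ne_zero_of_mul hx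
  have hsm : ContDiff ℝ 1 fun x : I → ℝ => ∏ i, p i (x i) :=
    contDiff_prod fun i _ => ((hp_smooth i).of_le (by norm_num)).comp (contDiff_apply ℝ ℝ i)
  refine ⟨{ φ := fun x => ∏ i, p i (x i)
            g := fun i s x => ∏ k, q i s k (x k)
            a := H
            pos := h
            φ_smooth := hsm
            φ_nonneg := fun x => prod_nonneg fun i _ => hp0 i _
            φ_int := by rw [integral_fintype_prod_volume_eq_prod]; simp [hp1]
            φ_supp := fun x hx i => hps i _ (prod_ne_zero_iff.1 hx i (mem_univ i))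
            g_cont := fun i s => continuous_finsetProd _ fun k _ => ?_
            g_nonneg := fun i s x => prod_nonneg fun k _ => ?_
            g_int := fun i s => ?_
            g_supp := fun i s x hx => ?_
            g_true := fun i x hx => ?_
            g_false := fun i x hx => ?_
            deriv := fun x c => ?_ }⟩
  · have : Continuous (q i s k) := by
      simp only [q]
      split_ifs
      · exact dst_cont _ _
      · exact (hp_smooth k).continuous
    exact this.comp (continuous_apply k)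
  · simp only [q]
    split_ifs
    · exact dst_nonneg _ (h i).1 _
    · exact hp0 k _
  · rw [integral_fintype_prod_volume_eq_prod]
    refine prod_eq_one fun k _ => ?_
    simp only [q]
    split_ifs
    · exact dst_int _ (h i).1
    · exact hp1 k
  · have key : ∀ k, 0 ≤ x k ∧ x k ≤ w k := by
      intro k
      have hk := prod_ne_zero_iff.1 hx k (mem_univ k)
      have h1 := h k
      simp only [q] at hk
      split_ifs at hk with hki
      · subst hki
        have := dst_supp h1.1 hk
        split_ifs at this <;> constructor <;> linarith [this.1, this.2]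
      · have := hps k _ hk
        constructor <;> linarith [this.1, this.2]
    exact ⟨fun k => (key k).1, fun k => (key k).2⟩
  · simpa using (dst_supp (h i).1 (hqs i true x hx)).1
  · have := (dst_supp (h i).1 (hqs i false x hx)).2
    simp only [Bool.false_eq_true, if_false] at this
    linarith
  · have h1 : HasDerivAt (fun t : ℝ => ∏ i, p i ((x + t • c) i)) (fderiv ℝ
        (fun x : I → ℝ => ∏ i, p i (x i)) x c) 0 := by
      have h2 : HasDerivAt (fun t : ℝ => x + t • c) c 0 := by
        simpa using ((hasDerivAt_id (0 : ℝ)).smul_const c).const_add x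
      have h3 := (hsm.differentiable one_ne_zero (x + (0 : ℝ) • c)).hasFDerivAt.comp_hasDerivAt
        (0 : ℝ) h2
      simpa [Function.comp_def] using h3
    have h4 : ∀ i ∈ (univ : Finset I), HasDerivAt (fun t : ℝ => p i ((x + t • c) i))
        (H i * (d i false (x i) - d i true (x i)) * c i) 0 := by
      intro i _
      have h5 : HasDerivAt (fun t : ℝ => (x + t • c) i) (c i) 0 := by
        simpa using ((hasDerivAt_id (0 : ℝ)).mul_const (c i)).const_add (x i)
      have h6 := ((plat_deriv (w i) (ε i) ((x + (0 : ℝ) • c) i)).const_mul (H i)).comp (0 : ℝ) h5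
      simpa [Function.comp_def, d, p] using h6
    have h7 := HasDerivAt.fun_finsetProd h4
    rw [h1.unique h7]
    refine sum_congr rfl fun i _ => ?_
    rw [hq, hq]
    simp only [zero_smul, add_zero, smul_eq_mul]
    ring

end Vale.Agent.P079
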