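import Vale.Agent.P079.Avg

/-! Averages against the densities of a kit. -/

namespace Vale.Agent.P079

open MeasureTheory Set Finset Filter Topology

namespace Kit

variable {I : Type} [Fintype I] {w ε : I → ℝ} (k : Kit I w ε)
  {E : Type*} [NormedAddCommGroup E] [NormedSpace ℝ E]

/-- Average of `f` over the face density `g i s`. -/
noncomputable def avg (i : I) (s : Bool) (f : (I → ℝ) → E) : E := ∫ x, k.g i s x • f x

lemma integrable (i : I) (s : Bool) {f : (I → ℝ) → E} (hf : ContinuousOn f (Icc 0 w)) :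
    Integrable fun x => k.g i s x • f x := by
  have h1 : IntegrableOn (fun x => k.g i s x • f x) (Icc 0 w) :=
    ((k.g_cont i s).continuousOn.fun_smul hf).integrableOn_compact isCompact_Icc
  refine h1.integrable_of_forall_notMem_eq_zero fun x hx => ?_
  have : k.g i s x = 0 := by by_contra h0; exact hx (k.g_supp i s x h0)
  simp [this]

lemma avg_congr (i : I) (s : Bool) {f f' : (I → ℝ) → E} (h : ∀ x ∈ Icc 0 w, f x = f' x) :
    k.avg i s f = k.avg i s f' := by
  unfold avg
  congr 1
  ext x
  by_cases h0 : k.g i s x = 0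
  · simp [h0]
  · rw [h x (k.g_supp i s x h0)]

lemma avg_const [CompleteSpace E] (i : I) (s : Bool) (c : E) : k.avg i s (fun _ => c) = c := by
  unfold avg
  rw [integral_smul_const, k.g_int, one_smul]

lemma avg_sub (i : I) (s : Bool) {f f' : (I → ℝ) → E} (hf : ContinuousOn f (Icc 0 w))
    (hf' : ContinuousOn f' (Icc 0 w)) :
    k.avg i s (fun x => f x - f' x) = k.avg i s f - k.avg i s f' := by
  unfold avg
  rw [← integral_sub (k.integrable i s hf) (k.integrable i s hf')]
  simp only [smul_sub]

lemma avg_add (i : I) (s : Bool) {f f' : (I → ℝ) → E} (hf : ContinuousOn f (Icc 0 w))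
    (hf' : ContinuousOn f' (Icc 0 w)) :
    k.avg i s (fun x => f x + f' x) = k.avg i s f + k.avg i s f' := by
  unfold avg
  rw [← integral_add (k.integrable i s hf) (k.integrable i s hf')]
  simp only [smul_add]

lemma norm_avg_le (i : I) (s : Bool) {f : (I → ℝ) → E} {h : (I → ℝ) → ℝ}
    (hh : ContinuousOn h (Icc 0 w)) (H : ∀ x ∈ Icc 0 w, k.g i s x ≠ 0 → ‖f x‖ ≤ h x) :
    ‖k.avg i s f‖ ≤ k.avg i s h := by
  unfold avg
  refine norm_integral_le_of_norm_le (k.integrable i s hh) (Eventually.of_forall fun x => ?_)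
  by_cases h0 : k.g i s x = 0
  · simp [h0]
  · rw [norm_smul, Real.norm_of_nonneg (k.g_nonneg i s x), smul_eq_mul]
    exact mul_le_mul_of_nonneg_left (H x (k.g_supp i s x h0) h0) (k.g_nonneg i s x)

lemma norm_sub_avg_le [CompleteSpace E] (i : I) (s : Bool) {f : (I → ℝ) → E} (y : E)
    {h : (I → ℝ) → ℝ} (hf : ContinuousOn f (Icc 0 w))
    (hh : ContinuousOn h (Icc 0 w)) (H : ∀ x ∈ Icc 0 w, k.g i s x ≠ 0 → ‖y - f x‖ ≤ h x) :
    ‖y - k.avg i s f‖ ≤ k.avg i s h := by
  have := k.norm_avg_le i s (f := fun x => y - f x) hh H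
  rwa [k.avg_sub i s continuousOn_const hf, avg_const] at this

lemma norm_avg_sub_avg_le (i : I) (s : Bool) {f f' : (I → ℝ) → E}
    {h : (I → ℝ) → ℝ} (hf : ContinuousOn f (Icc 0 w)) (hf' : ContinuousOn f' (Icc 0 w))
    (hh : ContinuousOn h (Icc 0 w)) (H : ∀ x ∈ Icc 0 w, k.g i s x ≠ 0 → ‖f x - f' x‖ ≤ h x) :
    ‖k.avg i s f - k.avg i s f'‖ ≤ k.avg i s h := by
  have := k.norm_avg_le i s (f := fun x => f x - f' x) hh H
  rwa [k.avg_sub i s hf hf'] at this

lemma avg_mono (i : I) (s : Bool) {f h : (I → ℝ) → ℝ} (hf : ContinuousOn f (Icc 0 w))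
    (hh : ContinuousOn h (Icc 0 w)) (H : ∀ x ∈ Icc 0 w, k.g i s x ≠ 0 → f x ≤ h x) :
    k.avg i s f ≤ k.avg i s h := by
  unfold avg
  refine integral_mono (k.integrable i s hf) (k.integrable i s hh) fun x => ?_
  by_cases h0 : k.g i s x = 0
  · simp [h0]
  · exact mul_le_mul_of_nonneg_left (H x (k.g_supp i s x h0) h0) (k.g_nonneg i s x)

lemma avg_mem [CompleteSpace E] (i : I) (s : Bool) {f : (I → ℝ) → E}
    (hf : ContinuousOn f (Icc 0 w)) {K : Set E} (hc : Convex ℝ K) (hK : IsClosed K)
    (H : ∀ x ∈ Icc 0 w, f x ∈ K) : k.avg i s f ∈ K := by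
  by_contra hn
  obtain ⟨ψ, u, h1, h2⟩ := geometric_hahn_banach_closed_point hc hK hn
  have h3 : ψ (k.avg i s f) = k.avg i s fun x => ψ (f x) := by
    unfold avg
    rw [← ψ.integral_comp_comm (k.integrable i s hf)]
    simp
  have h4 := k.avg_mono i s (f := fun x => ψ (f x)) (h := fun _ => u)
    (ψ.continuous.comp_continuousOn hf) continuousOn_const fun x hx _ => (h1 _ (H x hx)).le
  rw [avg_const] at h4
  linarith

lemma φ_compact : HasCompactSupport k.φ :=
  HasCompactSupport.intro (K := Icc 0 w) isCompact_Icc fun x hx => by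
    by_contra h0
    refine hx ⟨fun i => ?_, fun i => ?_⟩
    · exact (k.pos i).1.le.trans (k.φ_supp x h0 i).1
    · linarith [(k.pos i).1, (k.φ_supp x h0 i).2]

lemma hasDerivAt [CompleteSpace E] {F : (I → ℝ) → E} (hF : Continuous F) (c : I → ℝ) :
    HasDerivAt (fun t : ℝ => ∫ x, k.φ x • F (x - t • c))
      (∑ i, (c i * k.a i) • (k.avg i false F - k.avg i true F)) 0 := by
  let L : E →L[ℝ] ℝ →L[ℝ] E := (ContinuousLinearMap.lsmul ℝ ℝ).flip
  have hF' : LocallyIntegrable (fun x => F (-x)) (volume : Measure (I → ℝ)) :=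
    (hF.comp continuous_neg).locallyIntegrable
  have h1 := k.φ_compact.hasFDerivAt_convolution_right L hF' k.φ_smooth ((0 : ℝ) • c)
  have h2 : HasDerivAt (fun t : ℝ => t • c) c 0 := by
    simpa using (hasDerivAt_id (0 : ℝ)).smul_const c
  have h3 := h1.comp_hasDerivAt (0 : ℝ) h2
  rw [convolution_precompR_apply L hF' (k.φ_compact.fderiv ℝ)
    (k.φ_smooth.continuous_fderiv one_ne_zero)] at h3
  convert h3 using 1
  · ext t
    simp [convolution_eq_swap, L]
  · rw [convolution_eq_swap]
    simp only [zero_smul, zero_sub, neg_neg, L, ContinuousLinearMap.flip_apply,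
      ContinuousLinearMap.lsmul_apply, k.deriv, Finset.sum_smul]
    rw [integral_finsetSum]
    · refine sum_congr rfl fun i _ => ?_
      rw [avg, avg, ← integral_sub (k.integrable i _ hF.continuousOn)
        (k.integrable i _ hF.continuousOn), ← integral_smul]
      congr 1
      ext x
      rw [mul_smul _ (_ - _), sub_smul]
    · intro i _
      have := ((k.integrable i false hF.continuousOn).sub
        (k.integrable i true hF.continuousOn)).smul (c i * k.a i)
      refine this.congr (Eventually.of_forall fun x => ?_)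
      simp only [Pi.smul_apply, Pi.sub_apply]
      rw [mul_smul _ (_ - _), sub_smul]

/-- The averaged derivative of a map that contracts a seminorm contracts it as well. -/
theorem contraction [CompleteSpace E] {Y : Type*} [NormedAddCommGroup Y] [NormedSpace ℝ Y]
    {f : (I → ℝ) → E} (hf : ContinuousOn f (Icc 0 w)) (d : I → Y)
    (H : ∀ x ∈ Icc 0 w, ∀ y ∈ Icc 0 w, ‖f x - f y‖ ≤ ‖∑ i, (x i - y i) • d i‖) (c : I → ℝ) :
    ‖∑ i, (c i * k.a i) • (k.avg i true f - k.avg i false f)‖ ≤ ‖∑ i, c i • d i‖ := by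
  have hw : ∀ i, 0 ≤ w i := fun i => by linarith [k.pos i]
  let cl : (I → ℝ) → (I → ℝ) := fun x i => max 0 (min (x i) (w i))
  have hcl : Continuous cl := continuous_pi fun i =>
    continuous_const.max ((continuous_apply i).min continuous_const)
  have hclm : ∀ x, cl x ∈ Icc 0 w := fun x =>
    ⟨fun i => le_max_left _ _, fun i => max_le (hw i) (min_le_right _ _)⟩
  have hcle : ∀ x ∈ Icc 0 w, cl x = x := fun x hx => by
    ext i
    simp only [cl]
    rw [min_eq_left (hx.2 i)]
    exact max_eq_right (hx.1 i)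
  have hF : Continuous fun x => f (cl x) := hf.comp_continuous hcl hclm
  have h1 := k.hasDerivAt hF c
  have h2 : ∀ i s, k.avg i s (fun x => f (cl x)) = k.avg i s f := fun i s =>
    k.avg_congr i s fun x hx => by rw [hcle x hx]
  simp only [h2] at h1
  have h3 : ∀ᶠ t : ℝ in 𝓝 0, ∀ i, |t * c i| < ε i := by
    refine eventually_all.2 fun i => ?_
    have : Tendsto (fun t : ℝ => |t * c i|) (𝓝 0) (𝓝 (|0 * c i|)) :=
      ((continuous_id.mul continuous_const).abs).tendsto 0
    exact this.eventually (gt_mem_nhds (by simpa using (k.pos i).1))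
  have hint : ∀ t : ℝ, Integrable fun x => k.φ x • f (cl (x - t • c)) := fun t =>
    (k.φ_smooth.continuous.smul (hF.comp (continuous_id.sub continuous_const))).integrable_of_hasCompactSupport
      k.φ_compact.smul_right
  have h4 := h1.le_of_lip' (norm_nonneg (∑ i, c i • d i)) (by
    filter_upwards [h3] with t ht
    rw [← integral_sub (hint t) (hint 0)]
    have h5 : ∫ x, k.φ x * (‖∑ i, c i • d i‖ * ‖t - 0‖) = ‖∑ i, c i • d i‖ * ‖t - 0‖ := by
      rw [integral_mul_const, k.φ_int, one_mul]
    rw [← h5]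
    refine norm_integral_le_of_norm_le ((k.φ_smooth.continuous.integrable_of_hasCompactSupport
      k.φ_compact).mul_const _) (Eventually.of_forall fun x => ?_)
    by_cases h0 : k.φ x = 0
    · simp [h0]
    rw [← smul_sub, norm_smul, Real.norm_of_nonneg (k.φ_nonneg x)]
    refine mul_le_mul_of_nonneg_left ?_ (k.φ_nonneg x)
    have hs := k.φ_supp x h0
    have m1 : x - t • c ∈ Icc 0 w := ⟨fun i => by
        have := abs_lt.1 (ht i); simp only [Pi.zero_apply, Pi.sub_apply, Pi.smul_apply, smul_eq_mul]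
        linarith [hs i], fun i => by
        have := abs_lt.1 (ht i); simp only [Pi.sub_apply, Pi.smul_apply, smul_eq_mul]
        linarith [hs i]⟩
    have m2 : x - (0 : ℝ) • c ∈ Icc 0 w := ⟨fun i => by
        simp only [Pi.zero_apply, zero_smul, sub_zero]
        linarith [hs i, k.pos i], fun i => by
        simp only [zero_smul, sub_zero]
        linarith [hs i, k.pos i]⟩
    rw [hcle _ m1, hcle _ m2]
    refine (H _ m1 _ m2).trans (le_of_eq ?_)
    have : ∑ i, ((x - t • c) i - (x - (0 : ℝ) • c) i) • d i = (-t) • ∑ i, c i • d i := by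
      rw [Finset.smul_sum]
      refine sum_congr rfl fun i _ => ?_
      rw [smul_smul]
      congr 1
      simp
    rw [this, norm_smul, norm_neg, sub_zero, mul_comm])
  have h6 : ∑ i, (c i * k.a i) • (k.avg i true f - k.avg i false f) =
      -∑ i, (c i * k.a i) • (k.avg i false f - k.avg i true f) := by
    rw [← Finset.sum_neg_distrib]
    exact sum_congr rfl fun i _ => by rw [← smul_neg, neg_sub]
  rwa [h6, norm_neg]

/-- The averaged derivative of a linear form is its coefficient. -/
theorem linear_identity (i : I) (d : I → ℝ) :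
    k.a i * (k.avg i true (fun x => ∑ j, x j * d j) - k.avg i false (fun x => ∑ j, x j * d j)) =
      d i := by
  classical
  have hF : Continuous fun x : I → ℝ => ∑ j, x j * d j :=
    continuous_finsetSum _ fun j _ => (continuous_apply j).mul continuous_const
  have h1 := k.hasDerivAt hF (Pi.single i 1)
  have h2 : (fun t : ℝ => ∫ x, k.φ x • ∑ j, (x - t • (Pi.single i 1 : I → ℝ)) j * d j) =
      fun t => (∫ x, k.φ x • ∑ j, x j * d j) - t * d i := by
    ext t
    have h3 : ∀ x : I → ℝ, k.φ x • ∑ j, (x - t • (Pi.single i 1 : I → ℝ)) j * d j =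
        k.φ x • (∑ j, x j * d j) - k.φ x * (t * d i) := by
      intro x
      simp only [Pi.sub_apply, Pi.smul_apply, smul_eq_mul, sub_mul, Finset.sum_sub_distrib, mul_sub]
      congr 2
      rw [Finset.sum_eq_single i]
      · simp
      · intro j _ hj; simp [hj]
      · simp
    simp only [h3]
    have h6 : Integrable fun x => k.φ x • ∑ j, x j * d j :=
      (k.φ_smooth.continuous.smul hF).integrable_of_hasCompactSupport k.φ_compact.smul_right
    rw [integral_sub h6 ((k.φ_smooth.continuous.integrable_of_hasCompactSupport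
      k.φ_compact).mul_const _), integral_mul_const, k.φ_int, one_mul]
  rw [h2] at h1
  have h4 : HasDerivAt (fun t : ℝ => (∫ x, k.φ x • ∑ j, x j * d j) - t * d i) (-d i) 0 := by
    simpa using ((hasDerivAt_id (0 : ℝ)).mul_const (d i)).const_sub _
  have h5 := h1.unique h4
  rw [Finset.sum_eq_single i] at h5
  · simp only [Pi.single_eq_same, one_mul, smul_eq_mul] at h5
    linarith
  · intro j _ hj; simp [hj]
  · simp

lemma a_bounds (i : I) : 0 < k.a i ∧ 1 ≤ k.a i * w i ∧ k.a i * (w i - 4 * ε i) ≤ 1 := by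
  classical
  have h := k.linear_identity i (Pi.single i 1)
  have h0 : (fun x : I → ℝ => ∑ j, x j * (Pi.single i 1 : I → ℝ) j) = fun x => x i := by
    ext x
    rw [Finset.sum_eq_single i]
    · simp
    · intro j _ hj; simp [hj]
    · simp
  rw [h0, Pi.single_eq_same] at h
  have hc : ContinuousOn (fun x : I → ℝ => x i) (Icc 0 w) := (continuous_apply i).continuousOn
  have p1 := k.avg_mono i true continuousOn_const hc fun x _ hx => k.g_true i x hx
  have p2 := k.avg_mono i true hc continuousOn_const fun x hx _ => hx.2 i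
  have p3 := k.avg_mono i false hc continuousOn_const fun x _ hx => k.g_false i x hx
  have p4 := k.avg_mono i false (f := fun _ => 0) continuousOn_const hc fun x hx _ => hx.1 i
  rw [avg_const] at p1 p2 p3 p4
  have hp := k.pos i
  have ha : 0 < k.a i := by
    by_contra hn
    nlinarith [not_lt.1 hn]
  refine ⟨ha, ?_, ?_⟩ <;> nlinarith

end Kit

end Vale.Agent.P079
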