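import Vale.Agent.P079.Weak

/-! The normalised configuration produced by a fixed point free nonexpansive map. -/

namespace Vale.Agent.P079

open Set Filter Topology

/-- The normalised data extracted from a minimal invariant set of positive diameter. -/
structure Setup (X : Type*) [NormedAddCommGroup X] [NormedSpace ℝ X] where
  K : Set X
  U : Ultrafilter ℕ
  b : ℕ → X
  G : ℕ → X → X
  closed : IsClosed K
  convex : Convex ℝ K
  zero_mem : (0 : X) ∈ K
  diam : ∀ x ∈ K, ∀ y ∈ K, ‖x - y‖ ≤ 1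
  sep : TopologicalSpace.IsSeparable K
  U_le : (U : Filter ℕ) ≤ atTop
  b_mem : ∀ n, b n ∈ K
  b_far : ∀ y ∈ K, Tendsto (fun n => ‖b n - y‖) U (𝓝 1)
  b_weak : ∀ f : StrongDual ℝ X, Tendsto (fun n => f (b n)) U (𝓝 0)
  G_maps : ∀ n, MapsTo (G n) K K
  G_lip : ∀ n, ∀ x ∈ K, ∀ y ∈ K, ‖G n x - G n y‖ ≤ ‖x - y‖
  G_zero : ∀ n, G n 0 = b n
  G_fix : ∀ l, Tendsto (fun n => ‖G l (b n) - b n‖) U (𝓝 0)

variable {X : Type*} [NormedAddCommGroup X] [NormedSpace ℝ X]

lemma exists_family {T : X → X} {K : Set X} (hK : Inv T K)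
    (hT : ∀ x ∈ K, ∀ y ∈ K, ‖T x - T y‖ ≤ ‖x - y‖) (hmin : ∀ K', K' ⊆ K → Inv T K' → K ⊆ K')
    {z : X} (hz : z ∈ K) {x : X} (hx : x ∈ K) {η : ℝ} (hη : 0 < η) :
    ∃ G : X → X, MapsTo G K K ∧ (∀ x ∈ K, ∀ y ∈ K, ‖G x - G y‖ ≤ ‖x - y‖) ∧
      (∃ C : ℝ, ∀ x ∈ K, ‖G x - x‖ ≤ C * ‖T x - x‖) ∧ ‖G z - x‖ < η := by
  let S : Set (X → X) := {G | MapsTo G K K ∧ (∀ x ∈ K, ∀ y ∈ K, ‖G x - G y‖ ≤ ‖x - y‖) ∧
      ∃ C : ℝ, ∀ x ∈ K, ‖G x - x‖ ≤ C * ‖T x - x‖}
  obtain ⟨h1, h2⟩ := inv_closure hK hT (S := (fun G => G z) '' S) (by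
      rintro _ ⟨G, hG, rfl⟩
      exact hG.1 hz) ⟨z, id, ⟨mapsTo_id K, fun _ _ _ _ => le_rfl, 0, by simp⟩, rfl⟩ (by
      rintro _ ⟨G, hG, rfl⟩ _ ⟨G', hG', rfl⟩ a b ha hb hab
      obtain ⟨C, hC⟩ := hG.2.2
      obtain ⟨C', hC'⟩ := hG'.2.2
      refine ⟨fun x => a • G x + b • G' x, ⟨fun x hx => hK.2.2.1 (hG.1 hx) (hG'.1 hx) ha hb hab,
        fun x hx y hy => ?_, a * C + b * C', fun x hx => ?_⟩, rfl⟩
      · have : a • G x + b • G' x - (a • G y + b • G' y) =
            a • (G x - G y) + b • (G' x - G' y) := by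
          rw [smul_sub, smul_sub]; abel
        rw [this]
        refine (norm_add_le _ _).trans ?_
        rw [norm_smul, norm_smul, Real.norm_of_nonneg ha, Real.norm_of_nonneg hb]
        calc _ ≤ a * ‖x - y‖ + b * ‖x - y‖ := by
              gcongr; exacts [hG.2.1 x hx y hy, hG'.2.1 x hx y hy]
          _ = _ := by rw [← add_mul, hab, one_mul]
      · have : a • G x + b • G' x - x = a • (G x - x) + b • (G' x - x) := by
          rw [smul_sub, smul_sub, sub_add_sub_comm, ← add_smul, hab, one_smul]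
        rw [this]
        refine (norm_add_le _ _).trans ?_
        rw [norm_smul, norm_smul, Real.norm_of_nonneg ha, Real.norm_of_nonneg hb]
        calc _ ≤ a * (C * ‖T x - x‖) + b * (C' * ‖T x - x‖) := by
              gcongr; exacts [hC x hx, hC' x hx]
          _ = _ := by ring) (by
      rintro _ ⟨G, hG, rfl⟩
      obtain ⟨C, hC⟩ := hG.2.2
      refine ⟨fun x => T (G x), ⟨fun x hx => hK.2.2.2 (hG.1 hx), fun x hx y hy =>
        (hT _ (hG.1 hx) _ (hG.1 hy)).trans (hG.2.1 x hx y hy), C + 1, fun x hx => ?_⟩, rfl⟩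
      refine (norm_sub_le_norm_sub_add_norm_sub _ (T x) _).trans ?_
      linarith [hT _ (hG.1 hx) _ hx, hC x hx])
  obtain ⟨_, ⟨G, hG, rfl⟩, h3⟩ := Metric.mem_closure_iff.1 (hmin _ h1 h2 hx) η hη
  exact ⟨G, hG.1, hG.2.1, hG.2.2, by rwa [dist_comm, dist_eq_norm] at h3⟩

theorem exists_setup (hX : Function.Surjective (NormedSpace.inclusionInDoubleDual ℝ X))
    {T : X → X} {C : Set X} (hC : Inv T C) (hb : Bornology.IsBounded C)
    (hT : ∀ x ∈ C, ∀ y ∈ C, ‖T x - T y‖ ≤ ‖x - y‖) (hno : ∀ x ∈ C, T x ≠ x) :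
    Nonempty (Setup X) := by
  obtain ⟨K, hKC, hK, hmin⟩ := exists_minimal hX hC hb
  replace hT : ∀ x ∈ K, ∀ y ∈ K, ‖T x - T y‖ ≤ ‖x - y‖ := fun x hx y hy =>
    hT x (hKC hx) y (hKC hy)
  obtain ⟨R, hR⟩ := (hb.subset hKC).exists_norm_le
  have hD : ∀ x ∈ K, ∀ y ∈ K, ‖x - y‖ ≤ R + R := fun x hx y hy =>
    (norm_sub_le _ _).trans (add_le_add (hR x hx) (hR y hy))
  choose x hxK hxT using fun n : ℕ => exists_approx hK hD hT (Nat.one_div_pos_of_nat (n := n))
  let U := hyperfilter ℕ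
  have hU : (U : Filter ℕ) ≤ atTop := Nat.hyperfilter_le_atTop
  have h0 : Tendsto (fun n : ℕ => 1 / ((n : ℝ) + 1)) U (𝓝 0) :=
    tendsto_one_div_add_atTop_nhds_zero_nat.mono_left hU
  obtain ⟨z, hz⟩ := exists_wlim hX U x R (Eventually.of_forall fun n => hR _ (hxK n))
  have hzK : z ∈ K := wlim_mem hz hK.2.2.1 hK.2.1 (Eventually.of_forall hxK)
  choose G hGm hGl hGC hGz using fun n : ℕ =>
    exists_family hK hT hmin hzK (hxK n) (Nat.one_div_pos_of_nat (n := n))
  have hbK : ∀ n, G n z ∈ K := fun n => hGm n hzK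
  have hbT : Tendsto (fun n => ‖T (G n z) - G n z‖) U (𝓝 0) := by
    refine squeeze_zero (fun _ => norm_nonneg _) (fun n => ?_) (by simpa using h0.const_mul 3)
    have h1 := norm_sub_le_norm_sub_add_norm_sub (T (G n z)) (T (x n)) (G n z)
    have h2 := norm_sub_le_norm_sub_add_norm_sub (T (x n)) (x n) (G n z)
    have h3 := hT _ (hbK n) _ (hxK n)
    have h4 := hGz n
    have h5 := hxT n
    rw [norm_sub_rev (x n)] at h2
    rw [one_div] at h4 h5
    linarith
  have hbz : ∀ f : StrongDual ℝ X, Tendsto (fun n => f (G n z)) U (𝓝 (f z)) := by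
    intro f
    have h1 : Tendsto (fun n => G n z - x n) U (𝓝 0) :=
      squeeze_zero_norm (fun n => (hGz n).le) h0
    have h2 := ((f.continuous.tendsto 0).comp h1).add (hz f)
    simpa [Function.comp_def] using h2
  obtain ⟨r, hr1, hr2⟩ := goebel_karlovitz hK hD hT hmin U hbK hbT hbz
  have hr : 0 < r := lt_of_lt_of_le
    (norm_pos_iff.2 (sub_ne_zero.2 (hno z (hKC hzK)))) (hr2 _ (hK.2.2.2 hzK) _ hzK)
  have hn : ∀ v : X, ‖r⁻¹ • v‖ = r⁻¹ * ‖v‖ := fun v => by
    rw [norm_smul, Real.norm_of_nonneg (inv_pos.2 hr).le]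
  have he : ∀ v : X, z + r • r⁻¹ • (v - z) = v := fun v => by
    rw [smul_inv_smul₀ hr.ne']; abel
  have hd : ∀ u v : X, ‖z + r • u - (z + r • v)‖ = r * ‖u - v‖ := fun u v => by
    rw [add_sub_add_left_eq_sub, ← smul_sub, norm_smul, Real.norm_of_nonneg hr.le]
  have hd' : ∀ u v : X, r⁻¹ • (u - z) - v = r⁻¹ • (u - (z + r • v)) := fun u v => by
    rw [← sub_sub, smul_sub r⁻¹ (u - z), inv_smul_smul₀ hr.ne']
  exact ⟨{
    K := {v | z + r • v ∈ K}
    U := U
    b := fun n => r⁻¹ • (G n z - z)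
    G := fun n v => r⁻¹ • (G n (z + r • v) - z)
    closed := hK.2.1.preimage (by fun_prop)
    convex := fun u hu v hv a b ha hb hab => by
      have := hK.2.2.1 hu hv ha hb hab
      change z + r • (a • u + b • v) ∈ K
      convert this using 1
      rw [smul_add, smul_add, smul_add, add_add_add_comm, ← add_smul, hab, one_smul,
        smul_comm a r, smul_comm b r]
    zero_mem := by simpa using hzK
    diam := fun u hu v hv => by
      have := hr2 _ hu _ hv
      rw [hd] at this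
      nlinarith
    sep := by
      refine ((separable_of_minimal hK hT hmin).image (f := fun v => r⁻¹ • (v - z))
        (by fun_prop)).mono fun v hv => ⟨_, hv, ?_⟩
      simp [inv_smul_smul₀ hr.ne']
    U_le := hU
    b_mem := fun n => by
      change z + r • r⁻¹ • (G n z - z) ∈ K
      rw [he]; exact hbK n
    b_far := fun y hy => by
      have := (hr1 _ hy).const_mul r⁻¹
      rw [inv_mul_cancel₀ hr.ne'] at this
      simpa only [hd', hn] using this
    b_weak := fun f => by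
      have := ((hbz f).sub_const (f z)).const_mul r⁻¹
      simpa using this
    G_maps := fun n v hv => by
      change z + r • r⁻¹ • (G n (z + r • v) - z) ∈ K
      rw [he]; exact hGm n hv
    G_lip := fun n u hu v hv => by
      rw [← smul_sub, sub_sub_sub_cancel_right, hn]
      have := hGl n _ hu _ hv
      rw [hd] at this
      rw [inv_mul_le_iff₀ hr]
      exact this
    G_zero := fun n => by simp
    G_fix := fun l => by
      obtain ⟨c, hc⟩ := hGC l
      simp only [he, ← smul_sub, sub_sub_sub_cancel_right, hn]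
      have h1 : Tendsto (fun n => ‖G l (G n z) - G n z‖) U (𝓝 0) :=
        squeeze_zero (fun _ => norm_nonneg _) (fun n => hc _ (hbK n))
          (by simpa using hbT.const_mul c)
      simpa using h1.const_mul r⁻¹ }⟩

end Vale.Agent.P079
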