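import Vale.Agent.P079.Greedy
import Vale.Agent.P079.Setup

/-! The selection of the subsequence and the final contradiction. -/

namespace Vale.Agent.P079

open Set Finset Filter Topology

/-- Recursive choice depending on all earlier choices. -/
noncomputable def sel (step : ℕ → (ℕ → ℕ) → ℕ) : ℕ → ℕ
  | i => step i fun j => if _h : j < i then sel step j else 0

lemma sel_eq (step : ℕ → (ℕ → ℕ) → ℕ) (i : ℕ) :
    sel step i = step i fun j => if j < i then sel step j else 0 := by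
  rw [sel]
  simp

variable {X : Type*} [NormedAddCommGroup X] [NormedSpace ℝ X]

namespace Setup

variable (S : Setup X)

lemma adm (n : ℕ → ℕ) (N : ℕ) : Adm S.K (S.b N) (fun j => S.b (n j)) (fun l => S.G (n l)) where
  closed := S.closed
  convex := S.convex
  zero_mem := S.zero_mem
  diam := S.diam
  bN_mem := S.b_mem N
  b_mem := fun _ => S.b_mem _
  G_maps := fun _ => S.G_maps _
  G_lip := fun _ => S.G_lip _

lemma exists_norming {ι : Type*} (s : Finset ι) (hs : s.Nonempty) (y : ι → X)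
    (hy : ∀ k ∈ s, y k ∈ S.K) {η : ℝ} (hη : 0 < η) :
    ∀ᶠ n in S.U, ∃ ψ : StrongDual ℝ X, ‖ψ‖ ≤ 1 ∧ ∀ k ∈ s, 1 - η ≤ ψ (S.b n - y k) := by
  have hc : (0 : ℝ) < s.card := by exact_mod_cast hs.card_pos
  have hm : ∑ k ∈ s, (s.card : ℝ)⁻¹ • y k ∈ S.K :=
    S.convex.sum_mem (fun _ _ => by positivity) (by simp [hc.ne']) hy
  filter_upwards [(S.b_far _ hm).eventually (lt_mem_nhds (show 1 - η / s.card < 1 by
    linarith [div_pos hη hc]))] with n hn
  obtain ⟨ψ, h1, h2⟩ := exists_dual_vector'' ℝ (S.b n - ∑ k ∈ s, (s.card : ℝ)⁻¹ • y k)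
  refine ⟨ψ, h1, fun k hk => ?_⟩
  have hle : ∀ k ∈ s, ψ (S.b n - y k) ≤ 1 := fun k hk =>
    (le_abs_self _).trans ((ψ.le_opNorm _).trans ((mul_le_of_le_one_left (norm_nonneg _) h1).trans
      (S.diam _ (S.b_mem n) _ (hy k hk))))
  have h3 : ∑ k ∈ s, (1 - ψ (S.b n - y k)) =
      s.card * (1 - ψ (S.b n - ∑ k ∈ s, (s.card : ℝ)⁻¹ • y k)) := by
    simp only [map_sub, map_sum, map_smul, smul_eq_mul, Finset.sum_sub_distrib, sum_const,
      nsmul_eq_mul, ← mul_sum]
    field_simp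
  have h4 := single_le_sum (f := fun k => 1 - ψ (S.b n - y k))
    (fun k hk => sub_nonneg.2 (hle k hk)) hk
  rw [h3, h2] at h4
  have h5 : (s.card : ℝ) * (η / s.card) = η := by field_simp
  simp only [RCLike.ofReal_real_eq_id, id] at h4
  nlinarith

/-- The requirements on the choice made at stage `i`. -/
def Good (y : ℕ → X) (φ : ℕ → StrongDual ℝ X) (i : ℕ) (n : ℕ → ℕ) (n' : ℕ)
    (ψ : StrongDual ℝ X) : Prop :=
  ‖ψ‖ ≤ 1 ∧ 1 - δ i ≤ ψ (S.b n') ∧ (∀ k ≤ i, 1 - δ i ≤ ψ (S.b n' - y k)) ∧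
    (∀ᶠ N in S.U, ψ (corner N (S.b N) (fun j => S.b (n j)) (fun l => S.G (n l)) i) ≤ 2 * δ i) ∧
    (∀ l < i, ‖S.G (n l) (S.b n') - S.b n'‖ ≤ δ i) ∧
    ∀ k ≤ i, |φ k (S.b n')| ≤ 1 / ((i : ℝ) + 1)

lemma exists_good [CompleteSpace X]
    (hX : Function.Surjective (NormedSpace.inclusionInDoubleDual ℝ X))
    (y : ℕ → X) (hy : ∀ k, y k ∈ S.K) (φ : ℕ → StrongDual ℝ X) (i : ℕ) (n : ℕ → ℕ) :
    ∃ n' ψ, S.Good y φ i n n' ψ := by
  classical
  obtain ⟨Y, hY⟩ := exists_wlim hX S.U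
    (fun N => corner N (S.b N) (fun j => S.b (n j)) (fun l => S.G (n l)) i) 1
    (Eventually.of_forall fun N => (S.adm n N).norm_le ((S.adm n N).corner_mem N i))
  have hYK : Y ∈ S.K := wlim_mem hY S.convex S.closed
    (Eventually.of_forall fun N => (S.adm n N).corner_mem N i)
  have h1 := S.exists_norming (insert 0 (insert Y ((range (i + 1)).image y)))
    (insert_nonempty _ _) id (by
      intro k hk
      simp only [Finset.mem_insert, Finset.mem_image] at hk
      rcases hk with rfl | rfl | ⟨k, -, rfl⟩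
      exacts [S.zero_mem, hYK, hy k]) (δ_pos i)
  have h2 : ∀ᶠ n' in S.U, ∀ l ∈ range i, ‖S.G (n l) (S.b n') - S.b n'‖ ≤ δ i :=
    (eventually_all_finset _).2 fun l _ =>
      (S.G_fix (n l)).eventually (ge_mem_nhds (δ_pos i))
  have h3 : ∀ᶠ n' in S.U, ∀ k ∈ range (i + 1), |φ k (S.b n')| ≤ 1 / ((i : ℝ) + 1) :=
    (eventually_all_finset _).2 fun k _ => by
      have := (S.b_weak (φ k)).abs
      rw [abs_zero] at this
      exact this.eventually (ge_mem_nhds Nat.one_div_pos_of_nat)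
  obtain ⟨n', ⟨ψ, p1, p2⟩, p3, p4⟩ := (h1.and (h2.and h3)).exists
  refine ⟨n', ψ, p1, by simpa using p2 0 (mem_insert_self _ _), fun k hk => p2 (y k) ?_, ?_,
    fun l hl => p3 l (mem_range.2 hl), fun k hk => p4 k (mem_range.2 (by omega))⟩
  · exact mem_insert_of_mem (mem_insert_of_mem (mem_image_of_mem _ (mem_range.2 (by omega))))
  · have q1 := p2 Y (mem_insert_of_mem (mem_insert_self _ _))
    have q2 : ψ (S.b n') ≤ 1 := (le_abs_self _).trans ((ψ.le_opNorm _).trans
      ((mul_le_of_le_one_left (norm_nonneg _) p1).trans ((S.adm n 0).norm_le (S.b_mem n'))))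
    rw [map_sub, id] at q1
    exact (hY ψ).eventually (ge_mem_nhds (by linarith [δ_pos i]))

lemma exists_seq [CompleteSpace X]
    (hX : Function.Surjective (NormedSpace.inclusionInDoubleDual ℝ X))
    (y : ℕ → X) (hy : ∀ k, y k ∈ S.K) (φ : ℕ → StrongDual ℝ X) :
    ∃ (n : ℕ → ℕ) (ψ : ℕ → StrongDual ℝ X), ∀ i, S.Good y φ i n (n i) (ψ i) := by
  choose f g hfg using S.exists_good hX y hy φ
  refine ⟨sel f, fun i => g i fun j => if j < i then sel f j else 0, fun i => ?_⟩
  obtain ⟨h1, h2, h3, h4, h5, h6⟩ := hfg i fun j => if j < i then sel f j else 0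
  rw [← sel_eq f i] at h2 h3 h5 h6
  refine ⟨h1, h2, h3, ?_, fun l hl => by simpa [hl] using h5 l hl, h6⟩
  have e1 : (fun j => if j < i then S.b (if j < i then sel f j else 0) else 0) =
      fun j => if j < i then S.b (sel f j) else 0 := by
    ext j; split_ifs <;> rfl
  have e2 : (fun j => if j < i then S.G (if j < i then sel f j else 0) else fun _ => 0) =
      fun j => if j < i then S.G (sel f j) else fun _ => 0 := by
    ext j; split_ifs <;> rfl
  simp only [corner] at h4 ⊢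
  rwa [e1, e2] at h4

include S in
theorem absurd_setup [CompleteSpace X]
    (hX : Function.Surjective (NormedSpace.inclusionInDoubleDual ℝ X)) : False := by
  obtain ⟨t, htK, htc, htd⟩ := S.sep.exists_countable_dense_subset
  obtain ⟨y, rfl⟩ := htc.exists_eq_range (closure_nonempty_iff.1 ⟨0, htd S.zero_mem⟩)
  have hy : ∀ k, y k ∈ S.K := fun k => htK (mem_range_self k)
  choose φ hφ1 hφ2 using fun k => exists_dual_vector'' ℝ (y k)
  obtain ⟨n, ψ, hg⟩ := S.exists_seq hX y hy φ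
  have habs : ∀ i x, |ψ i x| ≤ ‖x‖ := fun i x =>
    ((ψ i).le_opNorm x).trans (mul_le_of_le_one_left (norm_nonneg _) (hg i).1)
  have h0 : Tendsto (fun n : ℕ => 1 / ((n : ℝ) + 1)) atTop (𝓝 0) :=
    tendsto_one_div_add_atTop_nhds_zero_nat
  -- Mazur
  have hmaz : ∀ i, ∃ J, Maz (fun j => S.b (n j)) i J := by
    intro i
    obtain ⟨Y, hY⟩ := exists_wlim hX S.U (fun j => S.b (n j)) 1
      (Eventually.of_forall fun j => (S.adm n 0).norm_le (S.b_mem _))
    have hφY : ∀ k, φ k Y = 0 := fun k => by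
      refine tendsto_nhds_unique (hY (φ k)) (Tendsto.mono_left ?_ S.U_le)
      refine squeeze_zero_norm' ?_ h0
      filter_upwards [eventually_ge_atTop k] with j hj using (hg j).2.2.2.2.2 k hj
    have hYK : Y ∈ S.K := wlim_mem hY S.convex S.closed (Eventually.of_forall fun j => S.b_mem _)
    have hY0 : Y = 0 := by
      have hcl : IsClosed {x : X | ‖x‖ ≤ ‖x - Y‖} := isClosed_le (by fun_prop) (by fun_prop)
      have : Y ∈ {x : X | ‖x‖ ≤ ‖x - Y‖} := closure_minimal (by
        rintro _ ⟨k, rfl⟩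
        have h1 := (φ k).le_opNorm (y k - Y)
        rw [map_sub, hφY, sub_zero, hφ2] at h1
        simp only [RCLike.ofReal_real_eq_id, id, norm_norm] at h1
        exact h1.trans (mul_le_of_le_one_left (norm_nonneg _) (hφ1 k))) hcl (htd hYK)
      simpa using this
    have hmem : Y ∈ closure (convexHull ℝ ((fun j => S.b (n j)) '' Ioi i)) :=
      wlim_mem hY (convex_convexHull ℝ _).closure isClosed_closure (by
        filter_upwards [S.U_le (eventually_gt_atTop i)] with j hj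
        exact subset_closure (subset_convexHull ℝ _ ⟨j, hj, rfl⟩))
    obtain ⟨x, hx, hx'⟩ := Metric.mem_closure_iff.1 hmem ((1 / 2) ^ i / (8 * ((i : ℝ) + 1)))
      (by positivity)
    obtain ⟨ι, _, w, z, w0, w1, hz, rfl⟩ := mem_convexHull_iff_exists_fintype.1 hx
    choose j hj1 hj2 using hz
    refine ⟨univ.sup j, ι, inferInstance, w, j, w0, w1, fun k => ⟨hj1 k, le_sup (mem_univ k)⟩, ?_⟩
    rw [hY0, dist_zero_left] at hx'
    simpa only [hj2] using hx'.le
  choose Jf hJf using hmaz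
  let J : ℕ → ℕ := fun r => Nat.rec 0 (fun _ a => a + (range (a + 1)).sup Jf) r
  have hJs : ∀ r, J (r + 1) = J r + (range (J r + 1)).sup Jf := fun r => rfl
  have hJ : ∀ r i, i ≤ J r → Jf i ≤ J (r + 1) := fun r i hi => by
    rw [hJs]
    exact le_add_left (le_sup (f := Jf) (mem_range.2 (by omega)))
  have hJm : Monotone J := monotone_nat_of_le_succ fun r => by rw [hJs]; omega
  have hH : ∀ k, ∃ H ∈ Submodule.span ℝ S.K, ‖H‖ ≤ 1 ∧
      ∀ s < k, ∃ j, s ≤ j ∧ j ≤ J (s + 1) ∧ ψ j H ≤ -1 / 2 := by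
    intro k
    have h1 : ∀ᶠ N in S.U, ∀ i ∈ range (J k + 1),
        ψ i (corner N (S.b N) (fun j => S.b (n j)) (fun l => S.G (n l)) i) ≤ 2 * δ i :=
      (eventually_all_finset _).2 fun i _ => (hg i).2.2.2.1
    have h2 : ∀ᶠ N in S.U, ∀ l ∈ range (J k + 1), ‖S.G (n l) (S.b N) - S.b N‖ ≤ ρ l :=
      (eventually_all_finset _).2 fun l _ => (S.G_fix (n l)).eventually (ge_mem_nhds (ρ_pos l))
    obtain ⟨N, p1, p2, p3⟩ := (h1.and (h2.and (S.U_le (eventually_ge_atTop (J k))))).exists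
    exact (S.adm n N).greedy N k (fun l => S.G_zero _) ψ (fun i => (hg i).1) Jf J hJf hJ hJm p3
      (fun i hi v hv hk => (S.adm n N).base N i (hg i).1 (hg i).2.1 (hg i).2.2.2.2.1
        (p1 i (mem_range.2 (by omega))) hv hk) fun l hl => p2 l (mem_range.2 (by omega))
  choose H hH1 hH2 hH3 using hH
  obtain ⟨Z, hZ⟩ := exists_wlim hX S.U H 1 (Eventually.of_forall hH2)
  have hZ1 : Z ∈ closure (Submodule.span ℝ S.K : Set X) :=
    wlim_mem hZ (Submodule.convex _).closure isClosed_closure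
      (Eventually.of_forall fun k => subset_closure (hH1 k))
  have hZ2 : ∀ s, ∃ j, s ≤ j ∧ ψ j Z ≤ -1 / 2 := by
    intro s
    have h1 : ∀ᶠ k in S.U, ∃ j ∈ Set.Icc s (J (s + 1)), ψ j (H k) ≤ -1 / 2 := by
      filter_upwards [S.U_le (eventually_gt_atTop s)] with k hk
      obtain ⟨j, h1, h2, h3⟩ := hH3 k s hk
      exact ⟨j, ⟨h1, h2⟩, h3⟩
    obtain ⟨j, hj, h2⟩ := (Ultrafilter.eventually_exists_mem_iff (Set.finite_Icc _ _)).1 h1
    exact ⟨j, hj.1, le_of_tendsto (hZ (ψ j)) h2⟩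
  have hδ : Tendsto δ atTop (𝓝 0) := by
    refine squeeze_zero (fun i => (δ_pos i).le) (fun i => ?_)
      (tendsto_pow_atTop_nhds_zero_of_lt_one (r := 1 / 2) (by norm_num) (by norm_num))
    have h1 := num1 (Nat.zero_le i)
    have h2 : δ i ≤ W (2 * i + 1) :=
      mul_le_of_le_one_right (W_pos _).le (by linarith [ω_le (2 * i)])
    have h3 : (0 : ℝ) < (1 / 2) ^ i := by positivity
    rw [pow_zero] at h1
    linarith
  let V : Submodule ℝ X :=
    { carrier := {x | Tendsto (fun j => ψ j x) atTop (𝓝 0)}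
      add_mem' := fun {a b} ha hb => by simpa using Tendsto.add ha hb
      zero_mem' := by simp
      smul_mem' := fun c x hx => by simpa using Tendsto.const_mul c hx }
  have hVc : IsClosed (V : Set X) := by
    refine isClosed_of_closure_subset fun x hx => ?_
    change Tendsto (fun j => ψ j x) atTop (𝓝 0)
    rw [Metric.tendsto_nhds]
    intro η hη
    obtain ⟨x', hx', hd⟩ := Metric.mem_closure_iff.1 hx (η / 2) (half_pos hη)
    filter_upwards [Metric.tendsto_nhds.1 hx' (η / 2) (half_pos hη)] with j hj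
    have := habs j (x - x')
    rw [map_sub] at this
    rw [dist_eq_norm] at hd
    rw [dist_zero_right, Real.norm_eq_abs] at hj ⊢
    linarith [abs_sub_abs_le_abs_sub (ψ j x) (ψ j x')]
  have hKV : S.K ⊆ V := htd.trans (closure_minimal (by
    rintro _ ⟨k, rfl⟩
    refine squeeze_zero_norm' ?_ hδ
    filter_upwards [eventually_ge_atTop k] with j hj
    have h1 := (hg j).2.1
    have h2 := (hg j).2.2.1 k hj
    have h3 := (abs_le.1 ((habs j _).trans ((S.adm n 0).norm_le (S.b_mem (n j))))).2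
    have h4 := (abs_le.1 ((habs j _).trans (S.diam _ (S.b_mem (n j)) _ (hy k)))).2
    rw [map_sub] at h2 h4
    rw [Real.norm_eq_abs, abs_le]
    constructor <;> linarith) hVc)
  have hZV : Tendsto (fun j => ψ j Z) atTop (𝓝 0) :=
    closure_minimal (Submodule.span_le.2 hKV) hVc hZ1
  obtain ⟨s, hs⟩ := eventually_atTop.1 (hZV.eventually (lt_mem_nhds (show (-1 / 2 : ℝ) < 0 by
    norm_num)))
  obtain ⟨j, hj, h⟩ := hZ2 s
  linarith [hs j hj]

end Setup

theorem fixed_point [CompleteSpace X]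
    (hX : Function.Surjective (NormedSpace.inclusionInDoubleDual ℝ X))
    {C : Set X} (hne : C.Nonempty) (hcl : IsClosed C) (hb : Bornology.IsBounded C)
    (hc : Convex ℝ C) {T : X → X} (hm : MapsTo T C C)
    (hT : ∀ x ∈ C, ∀ y ∈ C, ‖T x - T y‖ ≤ ‖x - y‖) : ∃ x ∈ C, T x = x := by
  by_contra hn
  push Not at hn
  obtain ⟨S⟩ := exists_setup hX ⟨hne, hcl, hc, hm⟩ hb hT hn
  exact S.absurd_setup hX

end Vale.Agent.P079
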