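import Vale.Agent.P079.Points

/-! The greedy path through the levels. -/

namespace Vale.Agent.P079

open Set Finset Vtx

lemma num1 {l r : ℕ} (h : r ≤ l) : W (2 * l + 1) * (4 / ω (2 * l)) ^ r ≤ (1 / 2) ^ l / 1000 := by
  have h1 := W_succ' (2 * l)
  rw [show 2 * l / 2 = l by omega] at h1
  have h2 := ω_pos (2 * l)
  have h3 : (1 : ℝ) ≤ 4 / ω (2 * l) := by
    rw [le_div_iff₀ h2]; linarith [ω_le (2 * l)]
  calc _ ≤ (ω (2 * l) / 4) ^ l / (1000 * 2 ^ l * ((l : ℝ) + 1)) * (4 / ω (2 * l)) ^ l :=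
        mul_le_mul h1 (pow_le_pow_right₀ h3 h) (by positivity) (by positivity)
    _ = (1 / 2) ^ l / 1000 / ((l : ℝ) + 1) := by
        rw [div_mul_eq_mul_div, ← mul_pow, one_div, inv_pow]
        field_simp
        simp
    _ ≤ _ := div_le_self (by positivity) (by linarith [(Nat.cast_nonneg l : (0 : ℝ) ≤ l)])

lemma num2 (l : ℕ) : ((l : ℝ) + 1) * W (2 * l + 2) ≤ (1 / 2) ^ l / 1000 := by
  have h1 := W_succ' (2 * l + 1)
  rw [show (2 * l + 1) / 2 = l by omega] at h1
  have h2 := ω_pos (2 * l + 1)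
  have h3 : (ω (2 * l + 1) / 4) ^ l ≤ 1 :=
    pow_le_one₀ (by positivity) (by linarith [ω_le (2 * l + 1)])
  calc _ ≤ ((l : ℝ) + 1) * (1 / (1000 * 2 ^ l * ((l : ℝ) + 1))) :=
        mul_le_mul_of_nonneg_left (h1.trans (by gcongr)) (by positivity)
    _ = _ := by
        rw [one_div (2 : ℝ), inv_pow]
        field_simp

/-- The tolerance at stage `i`. -/
noncomputable def δ (i : ℕ) : ℝ := W (2 * i + 1) * ω (2 * i)

lemma δ_pos (i : ℕ) : 0 < δ i := mul_pos (W_pos _) (ω_pos _)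

variable {X : Type*} [NormedAddCommGroup X] [NormedSpace ℝ X]

/-- The corner point of the configuration switched off from stage `i` on. -/
noncomputable def corner (m : ℕ) (bN : X) (b : ℕ → X) (G : ℕ → X → X) (i : ℕ) : X :=
  ∑ u : Vl m 0, wt 0 u • pt m bN (fun j => if j < i then b j else 0)
      (fun l => if l < i then G l else fun _ => 0) u

lemma wt_nonneg (l : ℕ) (v : Vtx) : 0 ≤ wt l v := by linarith [wt_mg l v]

/-- The formal derivative at level `l`. -/
noncomputable def D (m l : ℕ) : (Vtx →₀ ℝ) →ₗ[ℝ] (Vtx →₀ ℝ) :=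
  Finsupp.linearCombination ℝ fun v =>
    aa m l v • (Finsupp.single (out l true v) 1 - Finsupp.single (out l false v) 1)

lemma D_single (m l : ℕ) (v : Vtx) : D m l (Finsupp.single v 1) =
    aa m l v • (Finsupp.single (out l true v) 1 - Finsupp.single (out l false v) 1) := by
  simp [D]

lemma single_mem {m l : ℕ} {v : Vtx} (hv : v ∈ Vl m l) :
    Finsupp.single v (1 : ℝ) ∈ Finsupp.supported ℝ ℝ (Vl m l : Set Vtx) :=
  Finsupp.single_mem_supported ℝ _ (Finset.mem_coe.2 hv)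

lemma D_mem {m l a : ℕ} (h1 : a < l) (h2 : l ≤ m) {c : Vtx →₀ ℝ}
    (hc : c ∈ Finsupp.supported ℝ ℝ (Vl m l : Set Vtx)) :
    D m l c ∈ Finsupp.supported ℝ ℝ (Vl m a : Set Vtx) := by
  rw [D, Finsupp.linearCombination_apply_of_mem_supported _ hc]
  exact Submodule.sum_mem _ fun v hv => Submodule.smul_mem _ _ (Submodule.smul_mem _ _
    (Submodule.sub_mem _ (single_mem (out_mem h1 h2 _ hv)) (single_mem (out_mem h1 h2 _ hv))))

/-- A short convex combination of the tail of `b`. -/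
def Maz (b : ℕ → X) (i J : ℕ) : Prop :=
  ∃ (ι : Type) (_ : Fintype ι) (w : ι → ℝ) (j : ι → ℕ), (∀ k, 0 ≤ w k) ∧ ∑ k, w k = 1 ∧
    (∀ k, i < j k ∧ j k ≤ J) ∧ ‖∑ k, w k • b (j k)‖ ≤ (1 / 2) ^ i / (8 * ((i : ℝ) + 1))

namespace Adm

variable [CompleteSpace X] {K : Set X} {bN : X} {b : ℕ → X} {G : ℕ → X → X} (A : Adm K bN b G)
include A

lemma corner_mem (m i : ℕ) : corner m bN b G i ∈ K :=
  (A.off i).box_mem ⟨fun u => wt_nonneg 0 u, fun _ => le_rfl⟩

lemma base (m i : ℕ) {ψ : StrongDual ℝ X} (hψ : ‖ψ‖ ≤ 1) (h1 : 1 - δ i ≤ ψ (b i))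
    (h2 : ∀ l < i, ‖G l (b i) - b i‖ ≤ δ i) (h3 : ψ (corner m bN b G i) ≤ 2 * δ i)
    {v : Vtx} (hv : v ∈ Vl m 0) (hk : key v ≤ 2 * i) :
    |ψ (pt m bN b G v) - ct m i v| ≤ 7 * W (2 * i + 1) := by
  have hle : ∀ x, ψ x ≤ ‖x‖ := fun x =>
    (le_abs_self _).trans ((ψ.le_opNorm x).trans (mul_le_of_le_one_left (norm_nonneg _) hψ))
  have hδ := δ_pos i
  have hW := W_pos (2 * i + 1)
  have hω := ω_pos (2 * i)
  have hδW : δ i ≤ W (2 * i + 1) := mul_le_of_le_one_right hW.le (by linarith [ω_le (2 * i)])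
  have hlow : ∀ y ∈ K, -δ i ≤ ψ y := fun y hy => by
    have := (hle (b i - y)).trans (A.diam _ (A.b_mem i) _ hy)
    rw [map_sub] at this
    linarith
  rw [abs_le]
  constructor
  · have h4 := (hle _).trans (A.dist_le m i hδ.le h2 0 v hv)
    rw [map_sub] at h4
    split_ifs at h4 <;> linarith
  · have h4 := (hle _).trans (A.off_dist_le m i 0 v hv)
    rw [map_sub] at h4
    set q := pt m bN (fun j => if j < i then b j else 0)
      (fun l => if l < i then G l else fun _ => 0) with hq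
    have h5 : wt 0 v * ψ (q v) ≤ 3 * δ i := by
      rw [corner, map_sum, ← add_sum_erase _ _ (mem_univ ⟨v, hv⟩)] at h3
      have h6 : ∑ u ∈ univ.erase (⟨v, hv⟩ : Vl m 0), wt 0 u * (-δ i) ≤
          ∑ u ∈ univ.erase (⟨v, hv⟩ : Vl m 0), ψ (wt 0 u • q u) := sum_le_sum fun u _ => by
        rw [map_smul, smul_eq_mul]
        exact mul_le_mul_of_nonneg_left (hlow _ ((A.off i).pt_mem m u)) (wt_nonneg _ _)
      rw [← sum_mul] at h6
      have h7 : ∑ u ∈ univ.erase (⟨v, hv⟩ : Vl m 0), wt 0 u ≤ 1 :=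
        (sum_le_sum_of_subset_of_nonneg (erase_subset _ _) fun u _ _ => wt_nonneg _ _).trans
          (box_sum_le (m := m) (l := 0) ⟨fun u => wt_nonneg 0 u, fun _ => le_rfl⟩)
      rw [map_smul, smul_eq_mul] at h3
      nlinarith
    have h8 : ω (2 * i) ≤ wt 0 v := by
      unfold wt
      split_ifs
      · linarith [ρ_le 0, ω_le (2 * i)]
      · exact ω_anti hk
    have h9 : ψ (q v) ≤ 3 * W (2 * i + 1) := by
      by_contra hn
      have h10 := not_le.1 hn
      have : ω (2 * i) * ψ (q v) ≤ wt 0 v * ψ (q v) :=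
        mul_le_mul_of_nonneg_right h8 (by linarith)
      unfold δ at h5
      nlinarith
    split_ifs at h4 with h10 h11
    · linarith
    · omega
    · linarith

lemma norm_D_le {m l : ℕ} (hl : l ≤ m) {c : Vtx →₀ ℝ}
    (hc : c ∈ Finsupp.supported ℝ ℝ (Vl m l : Set Vtx)) :
    ‖Finsupp.linearCombination ℝ (pt m bN b G) (D m l c)‖ ≤
      ‖Finsupp.linearCombination ℝ (pt m bN b G) c‖ := by
  have h := A.contraction hl (fun u => c u)
  rw [D, Finsupp.linearCombination_apply_of_mem_supported _ hc,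
    Finsupp.linearCombination_apply_of_mem_supported _ hc, map_sum,
    ← Finset.sum_coe_sort (Vl m l), ← Finset.sum_coe_sort (Vl m l)]
  simpa [mul_smul] using h

theorem greedy (m k : ℕ) (hG0 : ∀ l, G l 0 = b l) (ψ : ℕ → StrongDual ℝ X) (hψ : ∀ i, ‖ψ i‖ ≤ 1)
    (Jf J : ℕ → ℕ) (hJf : ∀ i, Maz b i (Jf i)) (hJ : ∀ r i, i ≤ J r → Jf i ≤ J (r + 1))
    (hJm : Monotone J) (hkm : J k ≤ m)
    (hbase : ∀ i ≤ J k, ∀ v ∈ Vl m 0, key v ≤ 2 * i →
      |ψ i (pt m bN b G v) - ct m i v| ≤ 7 * W (2 * i + 1))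
    (hfix : ∀ l ≤ J k, ‖G l bN - bN‖ ≤ ρ l) :
    ∃ H ∈ Submodule.span ℝ K, ‖H‖ ≤ 1 ∧ ∀ s < k, ∃ j, s ≤ j ∧ j ≤ J (s + 1) ∧ ψ j H ≤ -1 / 2 := by
  set P := Finsupp.linearCombination ℝ (pt m bN b G) with hP
  have hPe : ∀ v, P (Finsupp.single v 1) = pt m bN b G v := fun v => by simp [hP]
  have habs : ∀ i x, |ψ i x| ≤ ‖x‖ := fun i x =>
    ((ψ i).le_opNorm x).trans (mul_le_of_le_one_left (norm_nonneg _) (hψ i))
  have main : ∀ r ≤ k, ∃ (a : ℕ) (S : Finset ℕ) (M : (Vtx →₀ ℝ) →ₗ[ℝ] X),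
      r ≤ a ∧ a ≤ J r ∧ S.card ≤ r ∧ (∀ j ∈ S, j ≤ a) ∧
      (∀ s < r, ∃ j ∈ S, s ≤ j ∧ j ≤ J (s + 1)) ∧
      (∀ c ∈ Finsupp.supported ℝ ℝ (Vl m a : Set Vtx), ‖M c‖ ≤ ‖P c‖) ∧
      (∀ c, M c ∈ Submodule.span ℝ K) ∧
      (∀ i, a < i → i ≤ J k → ∀ v ∈ Vl m a, key v ≤ 2 * i →
        |ψ i (M (Finsupp.single v 1)) - ct m i v| ≤ 7 * W (2 * i + 1) * (4 / ω (2 * i)) ^ r) ∧
      ∑ j ∈ S, (1 + ψ j (M (Finsupp.single th 1))) ≤ (1 - (1 / 2) ^ r) / 2 := by
    intro r
    induction r with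
    | zero =>
      intro _
      refine ⟨0, ∅, P, le_rfl, Nat.zero_le _, by simp, by simp, by simp, fun _ _ => le_rfl,
        fun c => ?_, fun i _ hi v hv hk => ?_, by simp⟩
      · rw [hP, Finsupp.linearCombination_apply]
        exact Submodule.sum_mem _ fun v _ =>
          Submodule.smul_mem _ _ (Submodule.subset_span (A.pt_mem m v))
      · simpa [hPe] using hbase i hi v hv hk
    | succ r ih =>
      intro hr
      obtain ⟨a, S, M, h1, h2, h3, h4, h5, h6, h7, h8, h9⟩ := ih (by omega)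
      obtain ⟨ι, _, w, j, w0, w1, hj, hw⟩ := hJf a
      have hjk : ∀ t, j t ≤ J (r + 1) := fun t => (hj t).2.trans (hJ r a h2)
      have hjm : ∀ t, j t ≤ m := fun t => (hjk t).trans ((hJm hr).trans hkm)
      have hr0 : (0 : ℝ) ≤ r := Nat.cast_nonneg r
      obtain ⟨t, ht⟩ : ∃ t, -((1 / 2) ^ r / 8) ≤ ∑ i ∈ S, ψ i (M (Finsupp.single (B (j t)) 1)) := by
        have hc := h6 (∑ t, w t • Finsupp.single (B (j t)) (1 : ℝ)) (Submodule.sum_mem _
          fun t _ => Submodule.smul_mem _ _ (single_mem (B_mem (hj t).1 (hjm t))))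
        rw [map_sum P] at hc
        simp only [map_smul, hPe, pt_B] at hc
        have hc2 : ∑ i ∈ S, -((1 / 2) ^ a / (8 * ((a : ℝ) + 1))) ≤
            ∑ i ∈ S, ψ i (M (∑ t, w t • Finsupp.single (B (j t)) (1 : ℝ))) :=
          sum_le_sum fun i _ => (abs_le.1 ((habs i _).trans (hc.trans hw))).1
        simp only [map_sum, map_smul, smul_eq_mul] at hc2
        rw [sum_comm, sum_const, nsmul_eq_mul] at hc2
        have hc3 : (S.card : ℝ) * ((1 / 2) ^ a / (8 * ((a : ℝ) + 1))) ≤ (1 / 2) ^ r / 8 := by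
          have e1 : (S.card : ℝ) ≤ (a : ℝ) + 1 := by exact_mod_cast (by omega)
          have e2 : (1 / 2 : ℝ) ^ a ≤ (1 / 2) ^ r :=
            pow_le_pow_of_le_one (by norm_num) (by norm_num) h1
          calc _ ≤ ((a : ℝ) + 1) * ((1 / 2) ^ r / (8 * ((a : ℝ) + 1))) := by gcongr
            _ = _ := by field_simp
        by_contra hn
        push Not at hn
        obtain ⟨t0, ht0⟩ : ∃ t, 0 < w t := by
          by_contra hn'
          push Not at hn'
          have : ∑ t, w t ≤ 0 := sum_nonpos fun t _ => hn' t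
          linarith
        have hc4 : ∑ t, ∑ i ∈ S, w t * ψ i (M (Finsupp.single (B (j t)) 1)) <
            ∑ t, w t * -((1 / 2) ^ r / 8) := by
          refine sum_lt_sum (fun t _ => ?_) ⟨t0, mem_univ _, ?_⟩
          · rw [← mul_sum]; exact mul_le_mul_of_nonneg_left (hn t).le (w0 t)
          · rw [← mul_sum]; exact mul_lt_mul_of_pos_left (hn t0) ht0
        rw [← sum_mul, w1] at hc4
        linarith
      set l := j t with hl
      have hal : a < l := (hj t).1
      have hlm : l ≤ m := hjm t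
      have hlk : l ≤ J k := (hjk t).trans (hJm hr)
      have hθ : ‖M (D m l (Finsupp.single th 1)) -
          (M (Finsupp.single th 1) - M (Finsupp.single (B l) 1))‖ ≤ 18 * ρ l := by
        rw [← map_sub, ← map_sub]
        refine (h6 _ (Submodule.sub_mem _ (D_mem hal hlm (single_mem (th_mem m l)))
          (Submodule.sub_mem _ (single_mem (th_mem m a)) (single_mem (B_mem hal hlm))))).trans ?_
        simp only [D_single, map_sub, map_smul, hPe, pt_th, pt_B]
        exact A.theta hlm (hG0 l) (hfix l hlk)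
      refine ⟨l, insert l S, M ∘ₗ D m l, by omega, hjk t, (card_insert_le _ _).trans (by omega),
        fun i hi => ?_, fun s hs => ?_, fun c hc => ?_, fun c => h7 _, fun i hi hik v hv hk => ?_,
        ?_⟩
      · rcases mem_insert.1 hi with rfl | hi
        · exact le_rfl
        · exact (h4 i hi).trans hal.le
      · rcases Nat.lt_succ_iff_lt_or_eq.1 hs with hs | rfl
        · obtain ⟨i, hi, hi'⟩ := h5 s hs
          exact ⟨i, mem_insert_of_mem hi, hi'⟩
        · exact ⟨l, mem_insert_self _ _, by omega, hjk t⟩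
      · exact (h6 _ (D_mem hal hlm hc)).trans (A.norm_D_le hlm hc)
      · have hk' : ∀ s, key (out l s v) ≤ 2 * i := fun s => by
          rw [key]; split_ifs <;> omega
        have e1 := h8 i (by omega) hik _ (out_mem hal hlm true hv) (hk' true)
        have e2 := h8 i (by omega) hik _ (out_mem hal hlm false hv) (hk' false)
        rw [← ct_identity hlm hi hv]
        simp only [LinearMap.comp_apply, D_single, map_smul, map_sub, smul_eq_mul]
        rw [← mul_sub, abs_mul, abs_of_pos (aa_pos hv), pow_succ]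
        have e3 := aa_le hv hk
        have e4 : |ψ i (M (Finsupp.single (out l true v) 1)) -
            ψ i (M (Finsupp.single (out l false v) 1)) -
            (ct m i (out l true v) - ct m i (out l false v))| ≤
            2 * (7 * W (2 * i + 1) * (4 / ω (2 * i)) ^ r) := by
          rw [abs_le] at e1 e2 ⊢
          constructor <;> linarith [e1.1, e1.2, e2.1, e2.2]
        calc _ ≤ (2 / ω (2 * i)) * (2 * (7 * W (2 * i + 1) * (4 / ω (2 * i)) ^ r)) :=
              mul_le_mul e3 e4 (abs_nonneg _) (div_pos two_pos (ω_pos _)).le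
          _ = _ := by ring
      · have hlS : l ∉ S := fun h => by have := h4 l h; omega
        rw [sum_insert hlS]
        simp only [LinearMap.comp_apply]
        have e0 : ∀ i, ψ i (M (D m l (Finsupp.single th 1))) ≤ ψ i (M (Finsupp.single th 1)) -
            ψ i (M (Finsupp.single (B l) 1)) + 18 * ρ l := fun i => by
          have := (abs_le.1 ((habs i _).trans hθ)).2
          rw [map_sub, map_sub] at this
          linarith
        have e1 := (abs_le.1 (h8 l hal hlk th (th_mem m a) (by simp [key]))).2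
        have e2 := (abs_le.1 (h8 l hal hlk (B l) (B_mem hal hlm) (by simp [key]))).1
        rw [ct_th] at e1
        rw [ct_B, if_pos rfl] at e2
        have e3 : ∑ i ∈ S, (1 + ψ i (M (D m l (Finsupp.single th 1)))) ≤
            ∑ i ∈ S, ((1 + ψ i (M (Finsupp.single th 1))) -
              ψ i (M (Finsupp.single (B l) 1)) + 18 * ρ l) :=
          sum_le_sum fun i _ => by linarith [e0 i]
        rw [sum_add_distrib (g := fun _ => 18 * ρ l), Finset.sum_sub_distrib, sum_const,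
          nsmul_eq_mul] at e3
        have e4 := num1 (show r ≤ l by omega)
        have e5 := num2 l
        have e6 : (S.card : ℝ) ≤ l := by exact_mod_cast (by omega)
        have e7 : (1 / 2 : ℝ) ^ l ≤ (1 / 2) ^ r :=
          pow_le_pow_of_le_one (by norm_num) (by norm_num) (by omega)
        have e8 := mul_le_mul_of_nonneg_right e6 (W_pos (2 * l + 2)).le
        have e9 := e0 l
        have e10 : (0 : ℝ) < (1 / 2) ^ r := by positivity
        unfold ρ at e3 e9
        rw [pow_succ]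
        nlinarith
  obtain ⟨a, S, M, -, -, -, -, h5, h6, h7, -, h9⟩ := main k le_rfl
  have hH : ‖M (Finsupp.single th 1)‖ ≤ 1 := by
    refine (h6 _ (single_mem (th_mem m a))).trans ?_
    rw [hPe]
    exact A.norm_le (A.pt_mem m _)
  refine ⟨_, h7 _, hH, fun s hs => ?_⟩
  obtain ⟨j, hj, h1, h2⟩ := h5 s hs
  refine ⟨j, h1, h2, ?_⟩
  have := single_le_sum (f := fun j => 1 + ψ j (M (Finsupp.single th 1))) (fun i _ => by
    linarith [(abs_le.1 ((habs i _).trans hH)).1]) hj
  have e10 : (0 : ℝ) < (1 / 2) ^ k := by positivity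
  linarith

end Adm

end Vale.Agent.P079
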