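import Mathlib

/-! Weak limits along ultrafilters, minimal invariant sets and the Goebel-Karlovitz lemma. -/

namespace Vale.Agent.P079

open Set Filter Topology

variable {X : Type*} [NormedAddCommGroup X] [NormedSpace ℝ X]

lemma exists_ulim {α : Type*} (U : Ultrafilter α) (x : α → ℝ) (R : ℝ)
    (hx : ∀ᶠ a in U, |x a| ≤ R) : ∃ r, Tendsto x U (𝓝 r) := by
  obtain ⟨r, -, hr⟩ := (isCompact_Icc (a := -R) (b := R)).ultrafilter_le_nhds (U.map x)
    (le_principal_iff.2 (by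
      change ∀ᶠ a in U, x a ∈ Icc (-R) R
      filter_upwards [hx] with a ha using abs_le.1 ha))
  exact ⟨r, hr⟩

lemma exists_wlim (hX : Function.Surjective (NormedSpace.inclusionInDoubleDual ℝ X))
    {α : Type*} (U : Ultrafilter α) (x : α → X) (R : ℝ) (hx : ∀ᶠ a in U, ‖x a‖ ≤ R) :
    ∃ y, ∀ f : StrongDual ℝ X, Tendsto (fun a => f (x a)) U (𝓝 (f y)) := by
  have hb : ∀ f : StrongDual ℝ X, ∀ᶠ a in U, |f (x a)| ≤ R * ‖f‖ := fun f => by
    filter_upwards [hx] with a ha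
    rw [mul_comm]
    exact (f.le_opNorm _).trans (mul_le_mul_of_nonneg_left ha (norm_nonneg _))
  choose L hL using fun f : StrongDual ℝ X => exists_ulim U (fun a => f (x a)) _ (hb f)
  let Φ : StrongDual ℝ X →ₗ[ℝ] ℝ :=
    { toFun := L
      map_add' := fun f g => tendsto_nhds_unique (hL (f + g)) ((hL f).add (hL g))
      map_smul' := fun c f => tendsto_nhds_unique (hL (c • f)) ((hL f).const_mul c) }
  obtain ⟨y, hy⟩ := hX (Φ.mkContinuous R fun f => le_of_tendsto (hL f).abs (hb f))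
  refine ⟨y, fun f => ?_⟩
  have : f y = L f := congrArg (fun Ψ => Ψ f) hy
  rw [this]
  exact hL f

lemma wlim_mem {α : Type*} {U : Filter α} [U.NeBot] {x : α → X} {y : X}
    (h : ∀ f : StrongDual ℝ X, Tendsto (fun a => f (x a)) U (𝓝 (f y))) {K : Set X}
    (hc : Convex ℝ K) (hK : IsClosed K) (hx : ∀ᶠ a in U, x a ∈ K) : y ∈ K := by
  by_contra hn
  obtain ⟨ψ, u, h1, h2⟩ := geometric_hahn_banach_closed_point hc hK hn
  have : ψ y ≤ u := le_of_tendsto (h ψ) (by filter_upwards [hx] with a ha using (h1 _ ha).le)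
  linarith

/-- Nonempty closed convex invariant sets. -/
def Inv (T : X → X) (K : Set X) : Prop := K.Nonempty ∧ IsClosed K ∧ Convex ℝ K ∧ MapsTo T K K

lemma exists_minimal (hX : Function.Surjective (NormedSpace.inclusionInDoubleDual ℝ X))
    {T : X → X} {C : Set X} (hC : Inv T C) (hb : Bornology.IsBounded C) :
    ∃ K ⊆ C, Inv T K ∧ ∀ K', K' ⊆ K → Inv T K' → K ⊆ K' := by
  obtain ⟨R, hR⟩ := hb.exists_norm_le
  obtain ⟨K, hK, hm⟩ := zorn_superset_nonempty {K | K ⊆ C ∧ Inv T K} (by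
    intro c hc hch hne
    refine ⟨⋂₀ c, ⟨?_, ?_, isClosed_sInter fun K hK => (hc hK).2.2.1,
      convex_sInter fun K hK => (hc hK).2.2.2.1, ?_⟩, fun s hs => sInter_subset_of_mem hs⟩
    · obtain ⟨K, hK⟩ := hne
      exact (sInter_subset_of_mem hK).trans (hc hK).1
    · have : Nonempty c := hne.to_subtype
      have hne' : (⨅ K : c, 𝓟 (K : Set X)).NeBot := by
        refine iInf_neBot_of_directed' ?_ fun K => principal_neBot_iff.2 (hc K.2).2.1
        intro a b
        rcases hch.total a.2 b.2 with h | h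
        · exact ⟨a, le_rfl, principal_mono.2 h⟩
        · exact ⟨b, principal_mono.2 h, le_rfl⟩
      let U := Ultrafilter.of (⨅ K : c, 𝓟 (K : Set X))
      have hU : ∀ K ∈ c, ∀ᶠ a in U, a ∈ K := fun K hK =>
        le_principal_iff.1 ((Ultrafilter.of_le _).trans (iInf_le (fun K : c => 𝓟 (K : Set X)) ⟨K, hK⟩))
      obtain ⟨K, hK⟩ := hne
      obtain ⟨y, hy⟩ := exists_wlim hX U id R (by
        filter_upwards [hU K hK] with a ha using hR a ((hc hK).1 ha))
      exact ⟨y, fun K' hK' => wlim_mem hy (hc hK').2.2.2.1 (hc hK').2.2.1 (hU K' hK')⟩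
    · intro x hx K hK
      exact (hc hK).2.2.2.2 (hx K hK)) C ⟨subset_rfl, hC⟩
  exact ⟨K, hK, hm.1.2, fun K' h1 h2 => hm.2 ⟨h1.trans hK, h2⟩ h1⟩

lemma exists_approx {T : X → X} {K : Set X} (hK : Inv T K) {D : ℝ}
    (hD : ∀ x ∈ K, ∀ y ∈ K, ‖x - y‖ ≤ D) (hT : ∀ x ∈ K, ∀ y ∈ K, ‖T x - T y‖ ≤ ‖x - y‖)
    {η : ℝ} (hη : 0 < η) : ∃ x ∈ K, ‖T x - x‖ ≤ η := by
  obtain ⟨⟨x0, hx0⟩, -, hc, hm⟩ := hK
  have hD0 : 0 ≤ D := by simpa using hD x0 hx0 x0 hx0
  obtain ⟨t, ht0, ht1, ht2⟩ : ∃ t : ℝ, 0 < t ∧ t ≤ 1 ∧ t * D ≤ η / 2 := by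
    refine ⟨min 1 (η / 2 / (D + 1)), lt_min one_pos (by positivity), min_le_left _ _, ?_⟩
    calc min 1 (η / 2 / (D + 1)) * D ≤ η / 2 / (D + 1) * (D + 1) :=
          mul_le_mul (min_le_right _ _) (by linarith) hD0 (by positivity)
      _ = η / 2 := by field_simp
  let S : X → X := fun x => (1 - t) • T x + t • x0
  have hS : ∀ x ∈ K, S x ∈ K := fun x hx => hc (hm hx) hx0 (by linarith) ht0.le (by ring)
  have hit : ∀ n, S^[n] x0 ∈ K ∧ ‖S (S^[n] x0) - S^[n] x0‖ ≤ (1 - t) ^ n * D := by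
    intro n
    induction n with
    | zero => exact ⟨hx0, by simpa using hD _ (hS _ hx0) _ hx0⟩
    | succ n ih =>
      rw [Function.iterate_succ_apply']
      refine ⟨hS _ ih.1, ?_⟩
      have : S (S (S^[n] x0)) - S (S^[n] x0) = (1 - t) • (T (S (S^[n] x0)) - T (S^[n] x0)) := by
        simp only [S, smul_sub]; abel
      rw [this, norm_smul, Real.norm_of_nonneg (by linarith), pow_succ', mul_assoc]
      exact mul_le_mul_of_nonneg_left ((hT _ (hS _ ih.1) _ ih.1).trans ih.2) (by linarith)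
  have hlim : Tendsto (fun n => (1 - t) ^ n * D) atTop (𝓝 (0 * D)) :=
    (tendsto_pow_atTop_nhds_zero_of_lt_one (by linarith) (by linarith)).mul_const D
  obtain ⟨n, hn⟩ := (hlim.eventually (gt_mem_nhds (show 0 * D < η / 2 by linarith))).exists
  refine ⟨_, (hit n).1, ?_⟩
  have h1 : T (S^[n] x0) - S^[n] x0 =
      t • (T (S^[n] x0) - x0) + (S (S^[n] x0) - S^[n] x0) := by
    simp only [S, smul_sub, sub_smul, one_smul]; abel
  rw [h1]
  refine (norm_add_le _ _).trans ?_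
  rw [norm_smul, Real.norm_of_nonneg ht0.le]
  have := mul_le_mul_of_nonneg_left (hD _ (hm (hit n).1) _ hx0) ht0.le
  linarith [(hit n).2]

omit [NormedSpace ℝ X] in
lemma continuousOn_of_nonexp {T : X → X} {K : Set X}
    (hT : ∀ x ∈ K, ∀ y ∈ K, ‖T x - T y‖ ≤ ‖x - y‖) : ContinuousOn T K :=
  (LipschitzOnWith.of_dist_le_mul (K := 1) fun x hx y hy => by
    simpa [dist_eq_norm] using hT x hx y hy).continuousOn

lemma inv_closure {T : X → X} {K S : Set X} (hK : Inv T K)
    (hT : ∀ x ∈ K, ∀ y ∈ K, ‖T x - T y‖ ≤ ‖x - y‖) (hS : S ⊆ K) (hne : S.Nonempty)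
    (hc : Convex ℝ S) (hm : MapsTo T S S) : closure S ⊆ K ∧ Inv T (closure S) := by
  have h := closure_minimal hS hK.2.1
  exact ⟨h, hne.closure, isClosed_closure, hc.closure,
    hm.closure_of_continuousOn ((continuousOn_of_nonexp hT).mono h)⟩

lemma separable_of_minimal {T : X → X} {K : Set X} (hK : Inv T K)
    (hT : ∀ x ∈ K, ∀ y ∈ K, ‖T x - T y‖ ≤ ‖x - y‖) (hmin : ∀ K', K' ⊆ K → Inv T K' → K ⊆ K') :
    TopologicalSpace.IsSeparable K := by
  obtain ⟨x0, hx0⟩ := hK.1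
  let S : ℕ → Set X := fun n => Nat.rec {x0} (fun _ A => convexHull ℝ (A ∪ T '' A)) n
  have hS : ∀ n, S (n + 1) = convexHull ℝ (S n ∪ T '' S n) := fun n => rfl
  have h1 : ∀ n, S n ⊆ K ∧ TopologicalSpace.IsSeparable (S n) := by
    intro n
    induction n with
    | zero => exact ⟨singleton_subset_iff.2 hx0, (finite_singleton x0).isSeparable⟩
    | succ n ih =>
      rw [hS]
      refine ⟨convexHull_min (union_subset ih.1 ?_) hK.2.2.1, ?_⟩
      · rintro _ ⟨x, hx, rfl⟩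
        exact hK.2.2.2 (ih.1 hx)
      · refine (ih.2.union (((continuousOn_of_nonexp hT).mono ih.1).isSeparable_image ih.2)).span
          (R := ℝ) |>.mono ?_
        exact convexHull_min Submodule.subset_span (Submodule.convex _)
  have hmono : Monotone S := monotone_nat_of_le_succ fun n =>
    subset_union_left.trans (subset_convexHull ℝ _)
  have hconv : ∀ n, Convex ℝ (S n) := by
    intro n
    cases n with
    | zero => exact convex_singleton x0
    | succ n => exact convex_convexHull ℝ _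
  obtain ⟨h2, h3⟩ := inv_closure hK hT (S := ⋃ n, S n) (iUnion_subset fun n => (h1 n).1)
    ⟨x0, mem_iUnion.2 ⟨0, rfl⟩⟩ (hmono.directed_le.convex_iUnion fun n => hconv n) (by
      intro x hx
      obtain ⟨n, hn⟩ := mem_iUnion.1 hx
      exact mem_iUnion.2 ⟨n + 1, subset_convexHull ℝ _ (Or.inr ⟨x, hn, rfl⟩)⟩)
  exact (TopologicalSpace.isSeparable_iUnion.2 fun n => (h1 n).2).closure.mono (hmin _ h2 h3)

/-- The Goebel-Karlovitz lemma along an ultrafilter. -/
lemma goebel_karlovitz {T : X → X} {K : Set X} (hK : Inv T K) {D : ℝ}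
    (hD : ∀ x ∈ K, ∀ y ∈ K, ‖x - y‖ ≤ D) (hT : ∀ x ∈ K, ∀ y ∈ K, ‖T x - T y‖ ≤ ‖x - y‖)
    (hmin : ∀ K', K' ⊆ K → Inv T K' → K ⊆ K') (U : Ultrafilter ℕ) {x : ℕ → X}
    (hx : ∀ n, x n ∈ K) (hxT : Tendsto (fun n => ‖T (x n) - x n‖) U (𝓝 0)) {z : X}
    (hz : ∀ f : StrongDual ℝ X, Tendsto (fun n => f (x n)) U (𝓝 (f z))) :
    ∃ r : ℝ, (∀ y ∈ K, Tendsto (fun n => ‖x n - y‖) U (𝓝 r)) ∧
      ∀ u ∈ K, ∀ y ∈ K, ‖u - y‖ ≤ r := by
  obtain ⟨y0, hy0⟩ := hK.1
  have hzK : z ∈ K := wlim_mem hz hK.2.2.1 hK.2.1 (Eventually.of_forall hx)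
  choose r hr using fun y : X => exists_ulim U (fun n => ‖x n - y‖) (D + ‖y0 - y‖)
    (Eventually.of_forall fun n => by
      rw [abs_norm]
      exact (norm_sub_le_norm_sub_add_norm_sub _ y0 _).trans (by linarith [hD _ (hx n) _ hy0]))
  have hlip : ∀ y y', r y ≤ r y' + ‖y' - y‖ := fun y y' =>
    le_of_tendsto_of_tendsto' (hr y) ((hr y').add_const _) fun n =>
      norm_sub_le_norm_sub_add_norm_sub _ _ _
  have hcont : Continuous r := (LipschitzWith.of_le_add (f := r) fun y y' => by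
    rw [dist_comm, dist_eq_norm]; exact hlip y y').continuous
  have hle : ∀ y ∈ K, ∀ y' ∈ K, r y ≤ r y' := by
    intro y hy y' hy'
    refine (hmin {u | u ∈ K ∧ r u ≤ r y'} (fun u hu => hu.1) ⟨⟨y', hy', le_rfl⟩,
      hK.2.1.inter (isClosed_le hcont continuous_const), ?_, ?_⟩ hy).2
    · intro u hu v hv a b ha hb hab
      refine ⟨hK.2.2.1 hu.1 hv.1 ha hb hab, ?_⟩
      have : r (a • u + b • v) ≤ a * r u + b * r v := by
        refine le_of_tendsto_of_tendsto' (hr _) (((hr u).const_mul a).add ((hr v).const_mul b))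
          fun n => ?_
        have : x n - (a • u + b • v) = a • (x n - u) + b • (x n - v) := by
          rw [smul_sub, smul_sub, sub_add_sub_comm, ← add_smul, hab, one_smul]
        rw [this]
        refine (norm_add_le _ _).trans ?_
        rw [norm_smul, norm_smul, Real.norm_of_nonneg ha, Real.norm_of_nonneg hb]
      calc _ ≤ a * r u + b * r v := this
        _ ≤ a * r y' + b * r y' := by gcongr; exacts [hu.2, hv.2]
        _ = r y' := by rw [← add_mul, hab, one_mul]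
    · intro u hu
      refine ⟨hK.2.2.2 hu.1, le_trans ?_ hu.2⟩
      have := le_of_tendsto_of_tendsto' (hr (T u)) (hxT.add (hr u)) fun n => by
        refine (norm_sub_le_norm_sub_add_norm_sub _ (T (x n)) _).trans ?_
        rw [norm_sub_rev]
        linarith [hT _ (hx n) _ hu.1]
      simpa using this
  have heq : ∀ y ∈ K, r y = r z := fun y hy => le_antisymm (hle _ hy _ hzK) (hle _ hzK _ hy)
  refine ⟨r z, fun y hy => heq y hy ▸ hr y, fun u hu => ?_⟩
  have hz' : ∀ y ∈ K, ‖z - y‖ ≤ r z := by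
    intro y hy
    refine le_of_forall_pos_le_add fun η hη => ?_
    have := wlim_mem hz (convex_closedBall y (r z + η)) Metric.isClosed_closedBall (by
      filter_upwards [(hr y).eventually (gt_mem_nhds (show r y < r z + η by
        rw [heq y hy]; linarith))] with n hn
      rw [mem_closedBall_iff_norm]
      exact hn.le)
    rwa [mem_closedBall_iff_norm] at this
  suffices h : u ∈ K ∩ ⋂ y ∈ K, Metric.closedBall y (r z) by
    simpa only [mem_iInter, mem_closedBall_iff_norm] using h.2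
  refine hmin (K ∩ ⋂ y ∈ K, Metric.closedBall y (r z)) inter_subset_left ⟨⟨z, hzK, ?_⟩,
    hK.2.1.inter (isClosed_biInter fun _ _ => Metric.isClosed_closedBall),
    hK.2.2.1.inter (convex_iInter₂ fun _ _ => convex_closedBall _ _), ?_⟩ hu
  · simpa only [mem_iInter, mem_closedBall_iff_norm] using hz'
  · intro v hv
    refine ⟨hK.2.2.2 hv.1, ?_⟩
    have hv2 : ∀ y ∈ K, ‖v - y‖ ≤ r z := by
      simpa only [mem_iInter, mem_closedBall_iff_norm] using hv.2
    have hTK : ∀ y ∈ K, T y ∈ K ∩ Metric.closedBall (T v) (r z) := fun y hy =>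
      ⟨hK.2.2.2 hy, by
        rw [mem_closedBall_iff_norm, norm_sub_rev]
        exact (hT _ hv.1 _ hy).trans (hv2 y hy)⟩
    have := hmin (K ∩ Metric.closedBall (T v) (r z)) inter_subset_left ⟨⟨_, hTK _ hzK⟩,
      hK.2.1.inter Metric.isClosed_closedBall, hK.2.2.1.inter (convex_closedBall _ _),
      fun y hy => hTK y hy.1⟩
    simp only [mem_iInter, mem_closedBall_iff_norm]
    intro y hy
    have := (this hy).2
    rwa [mem_closedBall_iff_norm, norm_sub_rev] at this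

end Vale.Agent.P079
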