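import Vale.Agent.P079.Tree
import Vale.Agent.P079.Weak

/-! The points attached to the vertices and their basic estimates. -/

namespace Vale.Agent.P079

open Set Finset Vtx

/-- Rank used for the recursion. -/
def rank (m : ℕ) : Vtx → ℕ
  | out l _ _ => m + 1 - l
  | _ => 0

lemma rank_le {m l : ℕ} {v : Vtx} (hv : v ∈ Vl m l) : rank m v ≤ m - l := by
  rcases Vl_cases hv with rfl | ⟨j, -, -, rfl⟩ | ⟨j, s, u, h1, h2, h3, rfl⟩
  · simp [rank]
  · simp [rank]
  · simp only [rank]; omega

variable {Y : Type*} [NormedAddCommGroup Y] [NormedSpace ℝ Y]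

/-- The point attached to a vertex. -/
noncomputable def pt (m : ℕ) (bN : Y) (b : ℕ → Y) (G : ℕ → Y → Y) : Vtx → Y
  | th => bN
  | B j => b j
  | out l s v => if h : l ≤ m ∧ v ∈ Vl m l then
      (kit m l).avg ⟨v, h.2⟩ s (fun x => G l (∑ u : Vl m l, x u • pt m bN b G u.1)) else 0
termination_by v => rank m v
decreasing_by
  have := rank_le u.2
  simp only [rank] at this ⊢
  omega

lemma pt_th (m : ℕ) (bN : Y) (b : ℕ → Y) (G : ℕ → Y → Y) : pt m bN b G th = bN := by rw [pt]

lemma pt_B (m : ℕ) (bN : Y) (b : ℕ → Y) (G : ℕ → Y → Y) (j : ℕ) : pt m bN b G (B j) = b j := by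
  rw [pt]

lemma pt_out {m l : ℕ} (bN : Y) (b : ℕ → Y) (G : ℕ → Y → Y) (hl : l ≤ m) (s : Bool)
    (v : Vl m l) : pt m bN b G (out l s v) =
      (kit m l).avg v s (fun x => G l (∑ u : Vl m l, x u • pt m bN b G u.1)) := by
  rw [pt, dif_pos ⟨hl, v.2⟩]

/-- Admissible data. -/
structure Adm (K : Set Y) (bN : Y) (b : ℕ → Y) (G : ℕ → Y → Y) : Prop where
  closed : IsClosed K
  convex : Convex ℝ K
  zero_mem : (0 : Y) ∈ K
  diam : ∀ x ∈ K, ∀ y ∈ K, ‖x - y‖ ≤ 1
  bN_mem : bN ∈ K
  b_mem : ∀ n, b n ∈ K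
  G_maps : ∀ n, MapsTo (G n) K K
  G_lip : ∀ n, ∀ x ∈ K, ∀ y ∈ K, ‖G n x - G n y‖ ≤ ‖x - y‖

lemma sum_smul_mem {I : Type*} [Fintype I] {K : Set Y} (hc : Convex ℝ K) (h0 : (0 : Y) ∈ K)
    {x : I → ℝ} (hx : ∀ i, 0 ≤ x i) (hs : ∑ i, x i ≤ 1) {p : I → Y} (hp : ∀ i, p i ∈ K) :
    ∑ i, x i • p i ∈ K := by
  have := hc.sum_mem (t := univ) (w := fun o : Option I => o.elim (1 - ∑ i, x i) x)
    (z := fun o => o.elim 0 p) (by rintro (_ | i) _; exacts [sub_nonneg.2 hs, hx i])
    (by simp [Fintype.sum_option]) (by rintro (_ | i) _; exacts [h0, hp i])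
  simpa [Fintype.sum_option] using this

lemma box_sum_le {m l : ℕ} {x : Vl m l → ℝ} (hx : x ∈ Icc (0 : Vl m l → ℝ) fun u => wt l u) :
    ∑ u, x u ≤ 1 := by
  refine (sum_le_sum fun u _ => hx.2 u).trans ?_
  rw [Finset.sum_coe_sort (Vl m l) (wt l)]
  exact sum_wt_le m l

lemma box_small_le {m l : ℕ} {x : Vl m l → ℝ} (hx : x ∈ Icc (0 : Vl m l → ℝ) fun u => wt l u)
    {c : ℝ} (hc : 0 ≤ c) : ∑ u : Vl m l, x u * (if (u : Vtx) = th then 0 else c) ≤ ρ l * c := by
  refine le_trans ?_ (mul_le_mul_of_nonneg_right (sum_small_le m l) hc)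
  rw [sum_mul, ← Finset.sum_coe_sort (Vl m l)]
  refine sum_le_sum fun u _ => ?_
  split_ifs with h
  · simp
  · have := hx.2 u
    simp only [wt, if_neg h] at this
    exact mul_le_mul_of_nonneg_right this hc

lemma box_tail_le {m l : ℕ} {x : Vl m l → ℝ} (hx : x ∈ Icc (0 : Vl m l → ℝ) fun u => wt l u)
    (n : ℕ) : ∑ u : Vl m l, x u * (if (u : Vtx) = th then 0 else if n ≤ key u then 1 else 0) ≤
      2 * W n := by
  refine le_trans ?_ (sum_tail_le m l n)
  rw [← Finset.sum_coe_sort (Vl m l)]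
  refine sum_le_sum fun u _ => ?_
  split_ifs with h h'
  · simp
  · have := hx.2 u
    simpa only [wt, if_neg h, mul_one] using this
  · simp

namespace Adm

variable [CompleteSpace Y] {K : Set Y} {bN : Y} {b : ℕ → Y} {G : ℕ → Y → Y} (A : Adm K bN b G)
include A

omit [CompleteSpace Y] in
lemma contOn_aux {m l : ℕ} (h : ∀ u ∈ Vl m l, pt m bN b G u ∈ K) :
    ContinuousOn (fun x : Vl m l → ℝ => G l (∑ u : Vl m l, x u • pt m bN b G u.1))
      (Icc 0 fun u => wt l u) :=
  (continuousOn_of_nonexp (A.G_lip l)).comp (Continuous.continuousOn (by fun_prop))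
    fun x hx => sum_smul_mem A.convex A.zero_mem hx.1 (box_sum_le hx) fun u => h u u.2

lemma pt_mem (m : ℕ) (v : Vtx) : pt m bN b G v ∈ K := by
  have key : ∀ l, l ≤ m → (∀ u ∈ Vl m l, pt m bN b G u ∈ K) → ∀ s, ∀ v ∈ Vl m l,
      pt m bN b G (out l s v) ∈ K := by
    intro l hl ih s v hv
    rw [pt_out bN b G hl s ⟨v, hv⟩]
    exact (kit m l).avg_mem _ s (A.contOn_aux ih) A.convex A.closed fun x hx =>
      A.G_maps l (sum_smul_mem A.convex A.zero_mem hx.1 (box_sum_le hx) fun u => ih u u.2)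
  have h := Vl_induction (m := m) (P := fun v => pt m bN b G v ∈ K)
    (by rw [pt_th]; exact A.bN_mem) (fun j => by rw [pt_B]; exact A.b_mem j) key
  cases v with
  | th => rw [pt_th]; exact A.bN_mem
  | B j => rw [pt_B]; exact A.b_mem j
  | out l s v =>
    by_cases hv : l ≤ m ∧ v ∈ Vl m l
    · exact key l hv.1 (h l) s v hv.2
    · rw [pt, dif_neg hv]; exact A.zero_mem

lemma contOn (m l : ℕ) :
    ContinuousOn (fun x : Vl m l → ℝ => G l (∑ u : Vl m l, x u • pt m bN b G u.1))
      (Icc 0 fun u => wt l u) := A.contOn_aux fun u _ => A.pt_mem m u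

lemma box_mem {m l : ℕ} {x : Vl m l → ℝ} (hx : x ∈ Icc (0 : Vl m l → ℝ) fun u => wt l u) :
    ∑ u : Vl m l, x u • pt m bN b G u.1 ∈ K :=
  sum_smul_mem A.convex A.zero_mem hx.1 (box_sum_le hx) fun u => A.pt_mem m u

omit [CompleteSpace Y] in
lemma norm_le {x : Y} (hx : x ∈ K) : ‖x‖ ≤ 1 := by simpa using A.diam x hx 0 A.zero_mem

/-- The averaged derivative at level `l` is a contraction. -/
lemma contraction {m l : ℕ} (hl : l ≤ m) (c : Vl m l → ℝ) :
    ‖∑ u : Vl m l, (c u * aa m l u) • (pt m bN b G (out l true u) - pt m bN b G (out l false u))‖ ≤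
      ‖∑ u : Vl m l, c u • pt m bN b G u‖ := by
  have := (kit m l).contraction (A.contOn m l) (fun u => pt m bN b G u) (fun x hx y hy => by
    refine (A.G_lip l _ (A.box_mem hx) _ (A.box_mem hy)).trans (le_of_eq ?_)
    rw [← Finset.sum_sub_distrib]
    simp only [sub_smul]) c
  convert this using 3 with u
  rw [pt_out bN b G hl, pt_out bN b G hl, aa, dif_pos u.2]

omit [CompleteSpace Y] in
lemma split_th {m l : ℕ} (f : Vl m l → ℝ) : ∑ u, f u = f ⟨th, th_mem m l⟩ +
    ∑ u, f u * (if (u : Vtx) = th then 0 else 1) := by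
  rw [← add_sum_erase _ _ (mem_univ ⟨th, th_mem m l⟩),
    ← add_sum_erase _ (fun u => f u * (if (u : Vtx) = th then 0 else 1))
      (mem_univ ⟨th, th_mem m l⟩)]
  simp only [if_true, mul_zero, zero_add]
  congr 1
  refine sum_congr rfl fun u hu => ?_
  have : (u : Vtx) ≠ th := fun h => ne_of_mem_erase hu (Subtype.ext h)
  simp [this]

/-- The main direction is moved from `bN` to `bN - b l`. -/
lemma theta {m l : ℕ} (hl : l ≤ m) (h0 : G l 0 = b l) (hN : ‖G l bN - bN‖ ≤ ρ l) :
    ‖aa m l th • (pt m bN b G (out l true th) - pt m bN b G (out l false th)) - (bN - b l)‖ ≤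
      18 * ρ l := by
  have hp : ‖bN - pt m bN b G (out l true th)‖ ≤ 5 * ρ l := by
    rw [pt_out bN b G hl true ⟨th, th_mem m l⟩]
    refine ((kit m l).norm_sub_avg_le _ _ bN (A.contOn m l) (h := fun _ => 5 * ρ l)
      continuousOn_const fun x hx hg => ?_).trans (by rw [Kit.avg_const])
    have h1 := (kit m l).g_true _ x hg
    simp only [wt, mg, if_true] at h1
    have h2 := A.G_lip l _ A.bN_mem _ (A.box_mem hx)
    have h3 : bN - ∑ u : Vl m l, x u • pt m bN b G u.1 =
        (1 - ∑ u, x u) • bN + ∑ u : Vl m l, x u • (bN - pt m bN b G u.1) := by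
      simp only [smul_sub, Finset.sum_sub_distrib, sub_smul, one_smul, Finset.sum_smul]
      abel
    have h4 : ‖∑ u : Vl m l, x u • (bN - pt m bN b G u.1)‖ ≤ ρ l * 1 := by
      refine (norm_sum_le _ _).trans (le_trans (sum_le_sum fun u _ => ?_)
        (box_small_le hx zero_le_one))
      rw [norm_smul, Real.norm_of_nonneg (hx.1 u)]
      refine mul_le_mul_of_nonneg_left ?_ (hx.1 u)
      split_ifs with h
      · rw [h, pt_th]; simp
      · exact A.diam _ A.bN_mem _ (A.pt_mem m u)
    have h5 : ‖(1 - ∑ u, x u) • bN‖ ≤ 3 * ρ l := by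
      have h6 := box_sum_le hx
      rw [norm_smul, Real.norm_of_nonneg (sub_nonneg.2 h6)]
      have h7 : x ⟨th, th_mem m l⟩ ≤ ∑ u, x u := single_le_sum (fun u _ => hx.1 u) (mem_univ _)
      have := A.norm_le A.bN_mem
      nlinarith
    rw [h3] at h2
    have h8 := norm_sub_le_norm_sub_add_norm_sub bN (G l bN) (G l (∑ u : Vl m l, x u • pt m bN b G u.1))
    rw [norm_sub_rev bN (G l bN)] at h8
    linarith [norm_add_le ((1 - ∑ u, x u) • bN) (∑ u : Vl m l, x u • (bN - pt m bN b G u.1))]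
  have hq : ‖b l - pt m bN b G (out l false th)‖ ≤ 3 * ρ l := by
    rw [pt_out bN b G hl false ⟨th, th_mem m l⟩]
    refine ((kit m l).norm_sub_avg_le _ _ (b l) (A.contOn m l) (h := fun _ => 3 * ρ l)
      continuousOn_const fun x hx hg => ?_).trans (by rw [Kit.avg_const])
    have h1 := (kit m l).g_false _ x hg
    simp only [mg, if_true] at h1
    have h2 := A.G_lip l _ A.zero_mem _ (A.box_mem hx)
    rw [h0, zero_sub, norm_neg] at h2
    refine h2.trans ((norm_sum_le _ _).trans ?_)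
    have h3 : ∑ u : Vl m l, ‖x u • pt m bN b G u.1‖ ≤ ∑ u, x u := sum_le_sum fun u _ => by
      rw [norm_smul, Real.norm_of_nonneg (hx.1 u)]
      exact mul_le_of_le_one_right (hx.1 u) (A.norm_le (A.pt_mem m u))
    rw [A.split_th x] at h3
    linarith [box_small_le hx zero_le_one]
  set p := pt m bN b G (out l true th)
  set q := pt m bN b G (out l false th)
  have h1 : aa m l th • (p - q) - (bN - b l) =
      (aa m l th - 1) • (p - q) + ((b l - q) - (bN - p)) := by
    rw [sub_smul, one_smul]; abel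
  rw [h1]
  refine (norm_add_le _ _).trans ?_
  have h2 := norm_sub_le (b l - q) (bN - p)
  have h3 := aa_th m l
  have h4 : ‖p - q‖ ≤ 1 := A.diam _ (A.pt_mem m _) _ (A.pt_mem m _)
  rw [norm_smul, Real.norm_of_nonneg (sub_nonneg.2 h3.1)]
  nlinarith [norm_nonneg (p - q)]

end Adm

/-- The content of `b i` in the point attached to a vertex. -/
noncomputable def ct (m i : ℕ) : Vtx → ℝ :=
  pt m 0 (fun j => if j = i then 1 else 0) (fun l => if l < i then id else fun _ => 0)

lemma adm_ct (i : ℕ) : Adm (Icc (0 : ℝ) 1) 0 (fun j => if j = i then 1 else 0)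
    (fun l => if l < i then id else fun _ => 0) where
  closed := isClosed_Icc
  convex := convex_Icc 0 1
  zero_mem := by simp
  diam := fun x hx y hy => by
    rw [Real.norm_eq_abs, abs_le]; constructor <;> linarith [hx.1, hx.2, hy.1, hy.2]
  bN_mem := by simp
  b_mem := fun n => by split_ifs <;> simp
  G_maps := fun n => by
    split_ifs
    · exact mapsTo_id _
    · intro x _; simp
  G_lip := fun n x _ y _ => by split_ifs <;> simp

lemma ct_nonneg (m i : ℕ) (v : Vtx) : 0 ≤ ct m i v := ((adm_ct i).pt_mem m v).1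

lemma ct_th (m i : ℕ) : ct m i th = 0 := pt_th ..

lemma ct_B (m i j : ℕ) : ct m i (B j) = if j = i then 1 else 0 := pt_B ..

lemma ct_out {m l i : ℕ} (hl : l ≤ m) (hi : l < i) (s : Bool) (v : Vl m l) :
    ct m i (out l s v) = (kit m l).avg v s fun x => ∑ u : Vl m l, x u * ct m i u := by
  rw [ct, pt_out _ _ _ hl]
  simp [hi]

lemma ct_out' {m l i : ℕ} (hl : l ≤ m) (hi : ¬ l < i) (s : Bool) (v : Vl m l) :
    ct m i (out l s v) = 0 := by
  rw [ct, pt_out _ _ _ hl]
  simp [hi, Kit.avg_const]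

lemma ct_identity {m l i : ℕ} (hl : l ≤ m) (hi : l < i) {v : Vtx} (hv : v ∈ Vl m l) :
    aa m l v * (ct m i (out l true v) - ct m i (out l false v)) = ct m i v := by
  rw [ct_out hl hi true ⟨v, hv⟩, ct_out hl hi false ⟨v, hv⟩, aa, dif_pos hv]
  exact (kit m l).linear_identity ⟨v, hv⟩ fun u => ct m i u

lemma ct_cont (m l i : ℕ) : Continuous fun x : Vl m l → ℝ => ∑ u : Vl m l, x u * ct m i u := by
  fun_prop

namespace Adm

variable [CompleteSpace Y] {K : Set Y} {bN : Y} {b : ℕ → Y} {G : ℕ → Y → Y} (A : Adm K bN b G)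
include A

lemma dist_le (m i : ℕ) {τ : ℝ} (hτ0 : 0 ≤ τ) (hτ : ∀ l < i, ‖G l (b i) - b i‖ ≤ τ) (l : ℕ) :
    ∀ v ∈ Vl m l, ‖b i - pt m bN b G v‖ ≤ 1 - ct m i v + if v = th then 0 else 2 * τ := by
  refine Vl_induction ?_ (fun j => ?_) (fun l hl ih s v hv => ?_) l
  · simpa [ct_th, pt_th] using A.diam _ (A.b_mem i) _ A.bN_mem
  · rw [pt_B, ct_B, if_neg (show B j ≠ th by simp)]
    split_ifs with h
    · subst h; simpa using hτ0
    · linarith [A.diam _ (A.b_mem i) _ (A.b_mem j)]
  · rw [if_neg (show out l s v ≠ th by simp)]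
    by_cases hi : l < i
    · rw [ct_out hl hi s ⟨v, hv⟩, pt_out bN b G hl s ⟨v, hv⟩]
      refine ((kit m l).norm_sub_avg_le _ _ (b i) (A.contOn m l)
        (h := fun x => (1 + 2 * τ) - ∑ u : Vl m l, x u * ct m i u)
        (continuous_const.sub (ct_cont m l i)).continuousOn fun x hx _ => ?_).trans (le_of_eq ?_)
      · have h2 := A.G_lip l _ (A.b_mem i) _ (A.box_mem hx)
        have h3 : b i - ∑ u : Vl m l, x u • pt m bN b G u.1 =
            (1 - ∑ u, x u) • b i + ∑ u : Vl m l, x u • (b i - pt m bN b G u.1) := by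
          simp only [smul_sub, Finset.sum_sub_distrib, sub_smul, one_smul, Finset.sum_smul]
          abel
        have h4 : ‖∑ u : Vl m l, x u • (b i - pt m bN b G u.1)‖ ≤
            ∑ u : Vl m l, (x u - x u * ct m i u + x u * if (u : Vtx) = th then 0 else 2 * τ) := by
          refine (norm_sum_le _ _).trans (sum_le_sum fun u _ => ?_)
          rw [norm_smul, Real.norm_of_nonneg (hx.1 u)]
          refine (mul_le_mul_of_nonneg_left (ih u u.2) (hx.1 u)).trans (le_of_eq ?_)
          ring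
        rw [sum_add_distrib, Finset.sum_sub_distrib] at h4
        have h5 : ‖(1 - ∑ u, x u) • b i‖ ≤ 1 - ∑ u, x u := by
          have h6 := box_sum_le hx
          rw [norm_smul, Real.norm_of_nonneg (sub_nonneg.2 h6)]
          exact mul_le_of_le_one_right (sub_nonneg.2 h6) (A.norm_le (A.b_mem i))
        have h6 := box_small_le hx (c := 2 * τ) (by linarith)
        rw [h3] at h2
        have h8 := norm_sub_le_norm_sub_add_norm_sub (b i) (G l (b i))
          (G l (∑ u : Vl m l, x u • pt m bN b G u.1))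
        rw [norm_sub_rev (b i) (G l (b i))] at h8
        have h9 := hτ l hi
        have h10 := mul_le_mul_of_nonneg_right (ρ_le l) hτ0
        linarith [norm_add_le ((1 - ∑ u, x u) • b i) (∑ u : Vl m l, x u • (b i - pt m bN b G u.1))]
      · rw [(kit m l).avg_sub _ _ continuousOn_const (ct_cont m l i).continuousOn, Kit.avg_const]
        ring
    · rw [ct_out' hl hi s ⟨v, hv⟩]
      linarith [A.diam _ (A.b_mem i) _ (A.pt_mem m (out l s v))]

omit [CompleteSpace Y] in
lemma off (i : ℕ) : Adm K bN (fun j => if j < i then b j else 0)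
    (fun l => if l < i then G l else fun _ => 0) where
  closed := A.closed
  convex := A.convex
  zero_mem := A.zero_mem
  diam := A.diam
  bN_mem := A.bN_mem
  b_mem := fun n => by split_ifs; exacts [A.b_mem n, A.zero_mem]
  G_maps := fun n => by
    split_ifs
    · exact A.G_maps n
    · intro x _; exact A.zero_mem
  G_lip := fun n x hx y hy => by
    split_ifs
    · exact A.G_lip n x hx y hy
    · simp

lemma off_dist_le (m i l : ℕ) : ∀ v ∈ Vl m l,
    ‖pt m bN b G v - pt m bN (fun j => if j < i then b j else 0)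
      (fun l => if l < i then G l else fun _ => 0) v‖ ≤
      ct m i v + if v = th then 0 else if 2 * i + 1 ≤ key v then 1 else 4 * W (2 * i + 1) := by
  have A' := A.off i
  have hW := W_pos (2 * i + 1)
  refine Vl_induction ?_ (fun j => ?_) (fun l hl ih s v hv => ?_) l
  · simp [ct_th, pt_th]
  · rw [pt_B, pt_B, ct_B, if_neg (show B j ≠ th by simp), key]
    have := A.norm_le (A.b_mem j)
    split_ifs with h1 h2 h3 h4 h5 h6 h7
    any_goals omega
    all_goals simp only [sub_self, norm_zero, sub_zero]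
    all_goals linarith
  · rw [if_neg (show out l s v ≠ th by simp)]
    split_ifs with hk
    · linarith [A.diam _ (A.pt_mem m (out l s v)) _ (A'.pt_mem m (out l s v)),
        ct_nonneg m i (out l s v)]
    have hi : l < i := by have := key_out_ge hv s; omega
    rw [ct_out hl hi s ⟨v, hv⟩, pt_out bN b G hl s ⟨v, hv⟩, pt_out bN _ _ hl s ⟨v, hv⟩]
    refine ((kit m l).norm_avg_sub_avg_le _ _ (A.contOn m l) (A'.contOn m l)
      (h := fun x => ∑ u : Vl m l, x u * ct m i u + 4 * W (2 * i + 1))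
      ((ct_cont m l i).add continuous_const).continuousOn fun x hx _ => ?_).trans (le_of_eq ?_)
    · simp only [if_pos hi]
      refine (A.G_lip l _ (A.box_mem hx) _ (A'.box_mem hx)).trans ?_
      rw [← Finset.sum_sub_distrib]
      refine (norm_sum_le _ _).trans ?_
      have h1 := box_small_le hx (c := 4 * W (2 * i + 1)) (by linarith)
      have h2 := box_tail_le hx (2 * i + 1)
      refine le_trans (sum_le_sum (g := fun u : Vl m l => x u * ct m i u +
        (x u * (if (u : Vtx) = th then 0 else 4 * W (2 * i + 1)) +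
          x u * (if (u : Vtx) = th then 0 else if 2 * i + 1 ≤ key u then 1 else 0)))
          fun u _ => ?_) ?_
      · rw [← smul_sub, norm_smul, Real.norm_of_nonneg (hx.1 u), ← mul_add, ← mul_add]
        refine mul_le_mul_of_nonneg_left ((ih u u.2).trans ?_) (hx.1 u)
        split_ifs <;> linarith
      · rw [sum_add_distrib, sum_add_distrib]
        nlinarith [ρ_le l]
    · rw [(kit m l).avg_add _ _ (ct_cont m l i).continuousOn continuousOn_const, Kit.avg_const]

end Adm

end Vale.Agent.P079
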