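import Vale.Agent.P079.Avg2

/-! The index tree, its weights and the averaging kits. -/

namespace Vale.Agent.P079

open Set Finset

/-- Formal vertices. -/
inductive Vtx : Type
  | th : Vtx
  | B (j : ℕ) : Vtx
  | out (l : ℕ) (s : Bool) (v : Vtx) : Vtx

noncomputable instance : DecidableEq Vtx := Classical.decEq _

open Vtx

/-- The key of a vertex determines its weight. -/
noncomputable def key : Vtx → ℕ
  | th => 0
  | B j => 2 * j
  | out l _ v => if v = th then 2 * l + 1 else key v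

/-- Vertices available after `t` steps below the horizon `m`. -/
noncomputable def Vs (m : ℕ) : ℕ → Finset Vtx
  | 0 => {th}
  | t + 1 => Vs m t ∪ ({B (m - t)} ∪ ((Vs m t).image (out (m - t) true) ∪
      (Vs m t).image (out (m - t) false)))

/-- Vertices available at level `l`. -/
noncomputable def Vl (m l : ℕ) : Finset Vtx := Vs m (m - l)

lemma Vs_mono (m : ℕ) : Monotone (Vs m) := monotone_nat_of_le_succ fun t => by
  rw [Vs]; exact Finset.subset_union_left

lemma Vl_anti (m : ℕ) {l l' : ℕ} (h : l ≤ l') : Vl m l' ⊆ Vl m l := Vs_mono m (by omega)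

lemma th_mem (m l : ℕ) : th ∈ Vl m l := Vs_mono m (Nat.zero_le _) (by simp [Vs])

lemma Vl_pred {m l : ℕ} (h : l + 1 ≤ m) : Vl m l = Vl m (l + 1) ∪ ({B (l + 1)} ∪
    ((Vl m (l + 1)).image (out (l + 1) true) ∪ (Vl m (l + 1)).image (out (l + 1) false))) := by
  have h1 : m - l = (m - (l + 1)) + 1 := by omega
  have h2 : m - (m - (l + 1)) = l + 1 := by omega
  rw [Vl, h1, Vs, h2]
  rfl

lemma B_mem {m l j : ℕ} (h1 : l < j) (h2 : j ≤ m) : B j ∈ Vl m l := by
  obtain ⟨j, rfl⟩ : ∃ j', j = j' + 1 := ⟨j - 1, by omega⟩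
  refine Vl_anti m (show l ≤ j by omega) ?_
  rw [Vl_pred h2]
  simp

lemma out_mem {m l j : ℕ} (h1 : l < j) (h2 : j ≤ m) (s : Bool) {v : Vtx} (hv : v ∈ Vl m j) :
    out j s v ∈ Vl m l := by
  obtain ⟨j, rfl⟩ : ∃ j', j = j' + 1 := ⟨j - 1, by omega⟩
  refine Vl_anti m (show l ≤ j by omega) ?_
  rw [Vl_pred h2]
  cases s <;> simp [hv]

lemma Vl_cases {m l : ℕ} {v : Vtx} (hv : v ∈ Vl m l) : v = th ∨ (∃ j, l < j ∧ j ≤ m ∧ v = B j) ∨
    ∃ j s u, l < j ∧ j ≤ m ∧ u ∈ Vl m j ∧ v = out j s u := by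
  induction' h : m - l with t ih generalizing l
  · rw [Vl, h] at hv
    left
    simpa [Vs] using hv
  · rw [Vl_pred (by omega)] at hv
    simp only [Finset.mem_union, Finset.mem_singleton, Finset.mem_image] at hv
    rcases hv with hv | hv | ⟨u, hu, hv⟩ | ⟨u, hu, hv⟩
    · rcases ih hv (by omega) with h1 | ⟨j, h1, h2, h3⟩ | ⟨j, s, u, h1, h2, h3, h4⟩
      · exact Or.inl h1
      · exact Or.inr (Or.inl ⟨j, by omega, h2, h3⟩)
      · exact Or.inr (Or.inr ⟨j, s, u, by omega, h2, h3, h4⟩)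
    · exact Or.inr (Or.inl ⟨l + 1, by omega, by omega, hv⟩)
    · exact Or.inr (Or.inr ⟨l + 1, true, u, by omega, by omega, hu, hv.symm⟩)
    · exact Or.inr (Or.inr ⟨l + 1, false, u, by omega, by omega, hu, hv.symm⟩)

lemma Vl_induction {m : ℕ} {P : Vtx → Prop} (h0 : P th) (hB : ∀ j, P (B j))
    (hout : ∀ l, l ≤ m → (∀ u ∈ Vl m l, P u) → ∀ s, ∀ v ∈ Vl m l, P (out l s v)) (l : ℕ) :
    ∀ v ∈ Vl m l, P v := by
  induction' h : m - l using Nat.strong_induction_on with t ih generalizing l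
  intro v hv
  rcases Vl_cases hv with rfl | ⟨j, -, -, rfl⟩ | ⟨j, s, u, h1, h2, h3, rfl⟩
  · exact h0
  · exact hB j
  · exact hout j h2 (ih (m - j) (by omega) j rfl) s u h3

lemma key_ge {m : ℕ} : ∀ {v : Vtx} {l : ℕ}, v ∈ Vl m l → v ≠ th → 2 * l + 2 ≤ key v := by
  intro v
  induction v with
  | th => simp
  | B j =>
    intro l hv _
    rcases Vl_cases hv with h | ⟨j, h1, -, h⟩ | ⟨j, s, u, h1, h2, h3, h⟩
    · cases h
    · cases h; rw [key]; omega
    · cases h
  | out j s u ih =>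
    intro l hv _
    rcases Vl_cases hv with h | ⟨j, h1, -, h⟩ | ⟨j, s, u, h1, h2, h3, h⟩
    · cases h
    · cases h
    · cases h
      rw [key]
      split_ifs with h
      · omega
      · have := ih h3 h
        omega

lemma key_out_ge {m l : ℕ} {v : Vtx} (hv : v ∈ Vl m l) (s : Bool) : 2 * l + 1 ≤ key (out l s v) := by
  rw [key]
  split_ifs with h
  · exact le_rfl
  · have := key_ge hv h
    omega

lemma sum_union_le {α : Type*} [DecidableEq α] (s t : Finset α) {f : α → ℝ} (hf : ∀ a, 0 ≤ f a) :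
    ∑ a ∈ s ∪ t, f a ≤ ∑ a ∈ s, f a + ∑ a ∈ t, f a := by
  rw [← Finset.sum_union_inter]
  exact le_add_of_nonneg_right (sum_nonneg fun a _ => hf a)

lemma sum_key_le (m : ℕ) {f τ : ℕ → ℝ} (hf : ∀ n, 0 ≤ f n) (hτ0 : ∀ n, 0 ≤ τ n)
    (hτ : ∀ n, 3 ^ n * f n + τ (n + 1) ≤ τ n) (l : ℕ) :
    3 ^ l * ∑ v ∈ Vl m l, (if v = th then 0 else f (key v)) ≤ τ (2 * l + 2) := by
  induction' h : m - l with t ih generalizing l
  · rw [Vl, h]
    simp [Vs, hτ0]
  · have ih' := ih (l + 1) (by omega)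
    set F : Vtx → ℝ := fun v => if v = th then 0 else f (key v) with hF
    have hF0 : ∀ v, 0 ≤ F v := fun v => by simp only [hF]; split_ifs; exacts [le_rfl, hf _]
    have h1 : ∀ s, ∑ v ∈ (Vl m (l + 1)).image (out (l + 1) s), F v ≤
        f (2 * (l + 1) + 1) + ∑ v ∈ Vl m (l + 1), F v := by
      intro s
      rw [sum_image (fun a _ b _ hab => by cases hab; rfl), ← add_sum_erase _ _ (th_mem m _),
        ← add_sum_erase _ F (th_mem m _)]
      have : ∑ v ∈ (Vl m (l + 1)).erase th, F (out (l + 1) s v) =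
          ∑ v ∈ (Vl m (l + 1)).erase th, F v :=
        sum_congr rfl fun v hv => by simp [hF, key, ne_of_mem_erase hv]
      rw [this]
      simp [hF, key]
    have h2 : ∑ v ∈ Vl m l, F v ≤ 3 * ∑ v ∈ Vl m (l + 1), F v + f (2 * (l + 1)) +
        2 * f (2 * (l + 1) + 1) := by
      rw [Vl_pred (show l + 1 ≤ m by omega)]
      refine (sum_union_le _ _ hF0).trans ?_
      have h3 := sum_union_le {B (l + 1)} ((Vl m (l + 1)).image (out (l + 1) true) ∪
        (Vl m (l + 1)).image (out (l + 1) false)) hF0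
      have h4 := sum_union_le ((Vl m (l + 1)).image (out (l + 1) true))
        ((Vl m (l + 1)).image (out (l + 1) false)) hF0
      have h5 : ∑ v ∈ {B (l + 1)}, F v = f (2 * (l + 1)) := by simp [hF, key]
      linarith [h1 true, h1 false]
    have h6 := hτ (2 * (l + 1))
    have h7 := hτ (2 * (l + 1) + 1)
    have h8 : (3 : ℝ) ^ l ≤ 3 ^ (2 * (l + 1)) := pow_le_pow_right₀ (by norm_num) (by omega)
    have h9 : (3 : ℝ) ^ (l + 1) ≤ 3 ^ (2 * (l + 1) + 1) := pow_le_pow_right₀ (by norm_num) (by omega)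
    have h10 := mul_le_mul_of_nonneg_right h8 (hf (2 * (l + 1)))
    have h11 := mul_le_mul_of_nonneg_right h9 (hf (2 * (l + 1) + 1))
    have h12 := mul_le_mul_of_nonneg_left h2 (show (0 : ℝ) ≤ 3 ^ l by positivity)
    have h13 := mul_nonneg (show (0 : ℝ) ≤ 3 ^ l by positivity) (hf (2 * (l + 1) + 1))
    rw [pow_succ] at ih' h11
    have e1 : 2 * l + 2 = 2 * (l + 1) := by ring
    have e2 : 2 * (l + 1) + 1 + 1 = 2 * (l + 1) + 2 := by ring
    rw [e1]
    rw [e2] at h7
    nlinarith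

/-- A rapidly decreasing sequence. -/
noncomputable def W : ℕ → ℝ
  | 0 => 1 / 100
  | n + 1 => min (W n / 2) ((W n / 3 ^ n / 4) ^ (n / 2) / (1000 * 2 ^ (n / 2) * ((n / 2 : ℕ) + 1)))

/-- The weight of a key. -/
noncomputable def ω (n : ℕ) : ℝ := W n / 3 ^ n

lemma W_pos (n : ℕ) : 0 < W n := by
  induction n with
  | zero => norm_num [W]
  | succ n ih => rw [W]; exact lt_min (by positivity) (by positivity)

lemma W_succ (n : ℕ) : W (n + 1) ≤ W n / 2 := by rw [W]; exact min_le_left _ _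

lemma W_succ' (n : ℕ) :
    W (n + 1) ≤ (ω n / 4) ^ (n / 2) / (1000 * 2 ^ (n / 2) * ((n / 2 : ℕ) + 1)) := by
  rw [W]; exact min_le_right _ _

lemma W_anti : Antitone W := antitone_nat_of_succ_le fun n => by
  linarith [W_succ n, W_pos n]

lemma W_le (n : ℕ) : W n ≤ 1 / 100 := W_anti (Nat.zero_le n)

lemma ω_pos (n : ℕ) : 0 < ω n := div_pos (W_pos n) (by positivity)

lemma ω_anti : Antitone ω := fun a b h =>
  div_le_div₀ (W_pos a).le (W_anti h) (by positivity) (pow_le_pow_right₀ (by norm_num) h)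

lemma ω_le (n : ℕ) : ω n ≤ 1 / 100 := (ω_anti (Nat.zero_le n)).trans (by norm_num [ω, W])

lemma sum_tail_le (m l n₀ : ℕ) :
    ∑ v ∈ Vl m l, (if v = th then 0 else if n₀ ≤ key v then ω (key v) else 0) ≤ 2 * W n₀ := by
  have h := sum_key_le m (f := fun n => if n₀ ≤ n then ω n else 0) (τ := fun n => 2 * W (max n n₀))
    (fun n => by split_ifs; exacts [(ω_pos n).le, le_rfl])
    (fun n => by linarith [W_pos (max n n₀)]) (fun n => by
      split_ifs with h
      · rw [max_eq_left h, max_eq_left (by omega), ω, mul_div_cancel₀ _ (by positivity)]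
        linarith [W_succ n]
      · rw [max_eq_right (by omega), max_eq_right (by omega)]
        simp) l
  have h1 : W (max (2 * l + 2) n₀) ≤ W n₀ := W_anti (le_max_right _ _)
  have h2 : (1 : ℝ) ≤ 3 ^ l := one_le_pow₀ (by norm_num)
  have h3 : 0 ≤ ∑ v ∈ Vl m l, (if v = th then 0 else if n₀ ≤ key v then ω (key v) else 0) :=
    sum_nonneg fun v _ => by split_ifs; exacts [le_rfl, (ω_pos _).le, le_rfl]
  nlinarith

/-- Total small weight at level `l`. -/
noncomputable def ρ (l : ℕ) : ℝ := 2 * W (2 * l + 2)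

lemma ρ_pos (l : ℕ) : 0 < ρ l := by unfold ρ; linarith [W_pos (2 * l + 2)]

lemma ρ_le (l : ℕ) : ρ l ≤ 1 / 50 := by unfold ρ; linarith [W_le (2 * l + 2)]

lemma sum_small_le (m l : ℕ) : ∑ v ∈ Vl m l, (if v = th then 0 else ω (key v)) ≤ ρ l := by
  refine le_trans (le_of_eq (sum_congr rfl fun v hv => ?_)) (sum_tail_le m l (2 * l + 2))
  split_ifs with h1 h2
  · rfl
  · rfl
  · exact absurd (key_ge hv h1) h2

/-- Side lengths of the box at level `l`. -/
noncomputable def wt (l : ℕ) (v : Vtx) : ℝ := if v = th then 1 - ρ l else ω (key v)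

/-- Margins of the box at level `l`. -/
noncomputable def mg (l : ℕ) (v : Vtx) : ℝ := if v = th then ρ l else ω (key v) / 8

lemma wt_mg (l : ℕ) (v : Vtx) : 0 < mg l v ∧ 4 * mg l v < wt l v := by
  unfold wt mg
  split_ifs
  · exact ⟨ρ_pos l, by linarith [ρ_le l]⟩
  · constructor <;> linarith [ω_pos (key v)]

lemma sum_wt_le (m l : ℕ) : ∑ v ∈ Vl m l, wt l v ≤ 1 := by
  have h := sum_small_le m l
  rw [← add_sum_erase _ _ (th_mem m l)] at h ⊢
  have : ∑ v ∈ (Vl m l).erase th, wt l v =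
      ∑ v ∈ (Vl m l).erase th, (if v = th then 0 else ω (key v)) :=
    sum_congr rfl fun v hv => by simp [wt, ne_of_mem_erase hv]
  rw [this]
  simp only [wt, if_true] at h ⊢
  linarith

/-- The kit at level `l`. -/
noncomputable def kit (m l : ℕ) : Kit (Vl m l) (fun u => wt l u) (fun u => mg l u) :=
  Classical.choice (exists_kit _ _ _ fun u => wt_mg l u)

/-- The normalising factor of a vertex. -/
noncomputable def aa (m l : ℕ) (v : Vtx) : ℝ := if h : v ∈ Vl m l then (kit m l).a ⟨v, h⟩ else 0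

lemma aa_pos {m l : ℕ} {v : Vtx} (h : v ∈ Vl m l) : 0 < aa m l v := by
  rw [aa, dif_pos h]
  exact ((kit m l).a_bounds _).1

lemma aa_th (m l : ℕ) : 1 ≤ aa m l th ∧ aa m l th ≤ 1 + 10 * ρ l := by
  rw [aa, dif_pos (th_mem m l)]
  have h := (kit m l).a_bounds ⟨th, th_mem m l⟩
  simp only [wt, mg, if_true] at h
  have h1 := ρ_pos l
  have h2 := ρ_le l
  constructor <;> nlinarith

lemma aa_le {m l n : ℕ} {v : Vtx} (h : v ∈ Vl m l) (hn : key v ≤ n) : aa m l v ≤ 2 / ω n := by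
  have h1 := ω_pos n
  rw [le_div_iff₀ h1]
  by_cases hv : v = th
  · subst hv
    have := aa_th m l
    nlinarith [ρ_le l, ω_le n]
  · have h2 := aa_pos h
    rw [aa, dif_pos h] at h2 ⊢
    have h3 := (kit m l).a_bounds ⟨v, h⟩
    simp only [wt, mg, if_neg hv] at h3
    have h4 := mul_le_mul_of_nonneg_left (ω_anti hn) h2.le
    nlinarith

end Vale.Agent.P079
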